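import Crest.Prelude.Def_MassAction

/-!
# The ODE part of S0122: an abstract absorbing/invariance theorem for a family of polytopes.
-/

namespace Crest.Agent.Lib.MassPerm

open Real Crest.AnalysisR.MassAction

open Set Filter Topology in
/-- The right-derivative criterion: a negative right derivative makes the function drop. -/
private theorem eventually_lt_of_hasDerivWithinAt_neg {g : ℝ → ℝ} {g' t : ℝ}
    (h : HasDerivWithinAt g g' (Ici t) t) (hg' : g' < 0) :
    ∀ᶠ u in 𝓝[>] t, g u < g t := by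
  have h1 : HasDerivWithinAt g g' (Ioi t) t := h.Ioi_of_Ici
  have h2 := (hasDerivWithinAt_iff_tendsto_slope' (by simp)).1 h1
  have h3 : ∀ᶠ u in 𝓝[>] t, slope g t u < 0 := h2.eventually (gt_mem_nhds hg')
  filter_upwards [h3, self_mem_nhdsWithin] with u hu hut
  have hut' : 0 < u - t := sub_pos.2 hut
  rw [slope_def_field, div_lt_iff₀ hut'] at hu
  linarith

open Set Filter Topology in
/-- The pairing of a differentiable curve with a fixed vector. -/
private theorem hasDerivWithinAt_pair {d : ℕ} (n : Fin d → ℝ) {x : ℝ → Fin d → ℝ} {v : Fin d → ℝ}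
    {s : Set ℝ} {t : ℝ} (h : HasDerivWithinAt x v s t) :
    HasDerivWithinAt (fun u => ∑ i, n i * x u i) (∑ i, n i * v i) s t := by
  have h1 := hasDerivWithinAt_pi.1 h
  exact HasDerivWithinAt.fun_sum (fun i _ => (h1 i).const_mul (n i))

open Set Filter Topology in
/-- The closed-and-right-open barrier argument. -/
private theorem barrier_core {d : ℕ} {J : Type} [Fintype J] (n : J → Fin d → ℝ) (φ φ' : J → ℝ → ℝ)
    (x v : ℝ → Fin d → ℝ) {t₀ T : ℝ}
    (hxc : ContinuousOn x (Icc t₀ T))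
    (hx : ∀ t ∈ Ico t₀ T, HasDerivWithinAt x (v t) (Ici t) t)
    (hφc : ∀ j, ContinuousOn (φ j) (Icc t₀ T))
    (hφ : ∀ j, ∀ t ∈ Ico t₀ T, HasDerivWithinAt (φ j) (φ' j t) (Ici t) t)
    (h0 : ∀ j, ∑ i, n j i * x t₀ i ≤ φ j t₀)
    (hact : ∀ t ∈ Ico t₀ T, (∀ j, ∑ i, n j i * x t i ≤ φ j t) → ∀ j, ∑ i, n j i * x t i = φ j t →
      ∑ i, n j i * v t i < φ' j t) :
    ∀ t ∈ Icc t₀ T, ∀ j, ∑ i, n j i * x t i ≤ φ j t := by
  classical
  let G : ℝ → J → ℝ := fun t j => ∑ i, n j i * x t i - φ j t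
  let s : Set ℝ := {t | ∀ j, G t j ≤ 0}
  have hGc : ContinuousOn G (Icc t₀ T) := by
    refine continuousOn_pi.2 fun j => ?_
    refine ContinuousOn.sub ?_ (hφc j)
    refine continuousOn_finsetSum _ fun i _ => ContinuousOn.mul continuousOn_const ?_
    exact (continuous_apply i).comp_continuousOn hxc
  have hclosed : IsClosed (s ∩ Icc t₀ T) := by
    have h1 : s ∩ Icc t₀ T = Icc t₀ T ∩ G ⁻¹' (Iic 0) := by
      ext t
      simp only [s, mem_inter_iff, Set.mem_ofPred_eq, mem_preimage, mem_Iic, Pi.le_def,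
        Pi.zero_apply]
      exact and_comm
    rw [h1]
    exact hGc.preimage_isClosed_of_isClosed isClosed_Icc isClosed_Iic
  have ha : t₀ ∈ s := fun j => by
    have := h0 j
    simp only [G]
    linarith
  have hgt : ∀ t ∈ s ∩ Ico t₀ T, s ∈ 𝓝[>] t := by
    rintro t ⟨hts, htI⟩
    have hall : ∀ᶠ u in 𝓝[>] t, ∀ j, G u j ≤ 0 := by
      refine eventually_all.2 fun j => ?_
      have hd : HasDerivWithinAt (fun u => G u j) (∑ i, n j i * v t i - φ' j t) (Ici t) t :=
        (hasDerivWithinAt_pair (n j) (hx t htI)).sub (hφ j t htI)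
      have hle : G t j ≤ 0 := hts j
      rcases hle.lt_or_eq with hlt | heq
      · have hc : ContinuousWithinAt (fun u => G u j) (Ioi t) t :=
          hd.continuousWithinAt.mono Ioi_subset_Ici_self
        have : ∀ᶠ u in 𝓝[>] t, G u j < 0 := hc.tendsto.eventually (gt_mem_nhds hlt)
        exact this.mono fun u hu => hu.le
      · have hts' : ∀ j, ∑ i, n j i * x t i ≤ φ j t := fun j => by
          have := hts j
          simp only [G] at this
          linarith
        have heq' : ∑ i, n j i * x t i = φ j t := by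
          simp only [G] at heq
          linarith
        have hneg := hact t htI hts' j heq'
        have := eventually_lt_of_hasDerivWithinAt_neg hd (by linarith)
        filter_upwards [this] with u hu
        rw [heq] at hu
        exact hu.le
    exact hall
  intro t ht j
  have := IsClosed.Icc_subset_of_forall_mem_nhdsWithin hclosed ha hgt ht j
  simp only [G] at this
  linarith

open Set Filter Topology in
/-- The moving barrier along a curve solving `x' = g x`. -/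
private theorem moving_barrier {d : ℕ} {J : Type} [Fintype J] (n : J → Fin d → ℝ) (b b' : J → ℝ → ℝ)
    (hb : ∀ j t, HasDerivAt (b j) (b' j t) t)
    (g : (Fin d → ℝ) → (Fin d → ℝ)) (x : ℝ → Fin d → ℝ)
    (hx : ∀ t : ℝ, 0 ≤ t → HasDerivWithinAt x (g (x t)) (Ici 0) t)
    {β₁ ε t₀ T : ℝ} (ht₀ : 0 ≤ t₀) (hstart : ∀ j, ∑ i, n j i * x t₀ i ≤ b j β₁)
    (hact : ∀ t ∈ Ico t₀ T, (∀ j, ∑ i, n j i * x t i ≤ b j (β₁ - ε * (t - t₀))) →
      ∀ j, ∑ i, n j i * x t i = b j (β₁ - ε * (t - t₀)) →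
        ∑ i, n j i * g (x t) i < b' j (β₁ - ε * (t - t₀)) * (-ε)) :
    ∀ t ∈ Icc t₀ T, ∀ j, ∑ i, n j i * x t i ≤ b j (β₁ - ε * (t - t₀)) := by
  have hder : ∀ j t, HasDerivAt (fun u => b j (β₁ - ε * (u - t₀)))
      (b' j (β₁ - ε * (t - t₀)) * (-ε)) t := by
    intro j t
    have h1 : HasDerivAt (fun u : ℝ => β₁ - ε * (u - t₀)) (-ε) t := by
      have := (((hasDerivAt_id t).sub_const t₀).const_mul ε).const_sub β₁
      simpa using this
    exact (hb j (β₁ - ε * (t - t₀))).comp t h1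
  refine barrier_core n (fun j t => b j (β₁ - ε * (t - t₀)))
    (fun j t => b' j (β₁ - ε * (t - t₀)) * (-ε)) x (fun t => g (x t)) ?_ ?_ ?_ ?_ ?_ hact
  · intro t ht
    exact (hx t (ht₀.trans ht.1)).continuousWithinAt.mono fun u hu => mem_Ici.2 (ht₀.trans hu.1)
  · intro t ht
    exact (hx t (ht₀.trans ht.1)).mono (Ici_subset_Ici.2 (ht₀.trans ht.1))
  · intro j t _
    exact (hder j t).continuousAt.continuousWithinAt
  · intro j t _
    exact (hder j t).hasDerivWithinAt
  · intro j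
    simpa using hstart j

open Set Filter Topology in
/-- Solutions stay in the affine slice. -/
private theorem slice_of_solution {d : ℕ} (S : Submodule ℝ (Fin d → ℝ)) (x v : ℝ → Fin d → ℝ)
    (hx : ∀ t : ℝ, 0 ≤ t → HasDerivWithinAt x (v t) (Ici 0) t) (hv : ∀ t : ℝ, 0 ≤ t → v t ∈ S) :
    ∀ t : ℝ, 0 ≤ t → x t - x 0 ∈ S := by
  intro t ht
  by_contra hcon
  obtain ⟨φ, hφ, hS⟩ := Submodule.exists_le_ker_of_notMem hcon
  let φc : (Fin d → ℝ) →L[ℝ] ℝ := LinearMap.toContinuousLinearMap φ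
  have hd : ∀ u : ℝ, 0 ≤ u → HasDerivWithinAt (fun w => φ (x w)) 0 (Ici 0) u := by
    intro u hu
    have h1 := φc.hasFDerivAt.comp_hasDerivWithinAt u (hx u hu)
    have h2 : φc (v u) = 0 := by
      have : v u ∈ LinearMap.ker φ := hS (hv u hu)
      simpa [φc] using this
    rw [h2] at h1
    exact h1
  have h1 : ∀ u ∈ Icc 0 t, φ (x u) = φ (x 0) := by
    refine constant_of_has_deriv_right_zero ?_ ?_
    · intro u hu
      exact (hd u hu.1).continuousWithinAt.mono fun w hw => mem_Ici.2 hw.1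
    · intro u hu
      exact (hd u hu.1).mono (Ici_subset_Ici.2 hu.1)
  apply hφ
  rw [map_sub, h1 t ⟨ht, le_rfl⟩, sub_self]

open Set Filter Topology NNReal in
/-- Global existence for a globally Lipschitz bounded field. -/
private theorem exists_global_solution {d : ℕ} (g : (Fin d → ℝ) → (Fin d → ℝ)) (K L : ℝ≥0)
    (hK : LipschitzWith K g) (hL : ∀ x, ‖g x‖ ≤ L) (x₀ : Fin d → ℝ) :
    ∃ α : ℝ → Fin d → ℝ, α 0 = x₀ ∧ ∀ t : ℝ, 0 ≤ t → HasDerivWithinAt α (g (α t)) (Ici 0) t := by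
  have hloc : ∀ n : ℕ, ∃ α : ℝ → Fin d → ℝ, α 0 = x₀ ∧
      ∀ t ∈ Icc (0:ℝ) n, HasDerivWithinAt α (g (α t)) (Icc (0:ℝ) n) t := by
    intro n
    have ht₀ : (0:ℝ) ∈ Icc (0:ℝ) n := ⟨le_rfl, Nat.cast_nonneg n⟩
    have hPL : IsPicardLindelof (fun _ => g) (tmin := 0) (tmax := n) ⟨0, ht₀⟩ x₀
        (L * (n : ℝ≥0)) 0 L K := by
      apply IsPicardLindelof.of_time_independent
      · intro x _; exact hL x
      · exact hK.lipschitzOnWith
      · simp
    exact hPL.exists_eq_forall_mem_Icc_hasDerivWithinAt₀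
  choose β hβ0 hβ using hloc
  have hagree : ∀ m n : ℕ, m ≤ n → EqOn (β m) (β n) (Icc (0:ℝ) m) := by
    intro m n hmn
    have hsub : Icc (0:ℝ) m ⊆ Icc (0:ℝ) n :=
      Icc_subset_Icc le_rfl (by exact_mod_cast hmn)
    refine ODE_solution_unique_of_mem_Icc_right (v := fun _ => g) (s := fun _ => univ)
      (K := K) (fun _ _ => hK.lipschitzOnWith) ?_ ?_ (fun _ _ => mem_univ _) ?_ ?_
      (fun _ _ => mem_univ _) ?_
    · exact fun t ht => (hβ m t ht).continuousWithinAt
    · intro t ht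
      exact (hβ m t ⟨ht.1, ht.2.le⟩).mono_of_mem_nhdsWithin (Icc_mem_nhdsGE_of_mem ht)
    · exact fun t ht => ((hβ n t (hsub ht)).continuousWithinAt).mono hsub
    · intro t ht
      have ht' : t ∈ Ico (0:ℝ) n := ⟨ht.1, lt_of_lt_of_le ht.2 (by exact_mod_cast hmn)⟩
      exact (hβ n t ⟨ht'.1, ht'.2.le⟩).mono_of_mem_nhdsWithin (Icc_mem_nhdsGE_of_mem ht')
    · rw [hβ0, hβ0]
  refine ⟨fun t => β ⌈t⌉₊ t, ?_, ?_⟩
  · simp [hβ0]
  · intro t ht
    have hα : ∀ n : ℕ, ∀ u ∈ Icc (0:ℝ) n, β ⌈u⌉₊ u = β n u := by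
      intro n u hu
      have hle : ⌈u⌉₊ ≤ n := Nat.ceil_le.2 hu.2
      exact hagree _ _ hle ⟨hu.1, Nat.le_ceil u⟩
    set N : ℕ := ⌈t⌉₊ + 1 with hN
    have htN : t ∈ Ico (0:ℝ) N := ⟨ht, by
      have := Nat.le_ceil t
      rw [hN]; push_cast; linarith⟩
    have hd := hβ N t ⟨htN.1, htN.2.le⟩
    have hval : β ⌈t⌉₊ t = β N t := hα N t ⟨htN.1, htN.2.le⟩
    have h1 : HasDerivWithinAt (fun u => β ⌈u⌉₊ u) (g (β ⌈t⌉₊ t)) (Icc (0:ℝ) N) t := by
      rw [hval]
      exact hd.congr (fun u hu => hα N u hu) hval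
    have h2 : Icc (0:ℝ) N ∈ 𝓝[Ici 0] t := by
      have : Iio (N:ℝ) ∈ 𝓝[Ici 0] t := mem_nhdsWithin_of_mem_nhds (Iio_mem_nhds htN.2)
      filter_upwards [this, self_mem_nhdsWithin] with u hu1 hu2
      exact ⟨hu2, le_of_lt hu1⟩
    exact h1.mono_of_mem_nhdsWithin h2

/-- Abstract barrier theorem. `K(β) = {x | ∀ j, ⟨n j, x⟩ ≤ b j β}`, `S` a subspace containing the
values of the `C¹` field `f`, `c` strictly inside `K(β₀)`. On the slice `c + S` all active normals
are uniformly inward on `K(β)`, `β ∈ [β₀, β₁]`. Every positive point of `c + S` lies in some `K(β)`,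
`β ≥ β₀`. Then `K(β₀) ∩ (c + S)` is compact, convex, invariant, absorbing, with existence and
uniqueness of forward solutions, all positive. -/
theorem barrier_main {d : ℕ} (f : (Fin d → ℝ) → (Fin d → ℝ)) (hf : ContDiff ℝ 1 f)
    (S : Submodule ℝ (Fin d → ℝ)) (hfS : ∀ x, f x ∈ S) (c : Fin d → ℝ)
    {J : Type} [Fintype J] (n : J → Fin d → ℝ) (b b' : J → ℝ → ℝ) (r : ℝ)
    (hb : ∀ j t, HasDerivAt (b j) (b' j t) t) (hb' : ∀ j, Continuous (b' j))
    (β₀ : ℝ)
    (hbox : ∀ β, β₀ ≤ β → ∀ x : Fin d → ℝ, (∀ j, ∑ i, n j i * x i ≤ b j β) →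
      ∀ i, exp (-(r * β)) / 2 ≤ x i ∧ x i ≤ 2 * exp β)
    (hin : ∀ β₁, β₀ ≤ β₁ → ∃ η : ℝ, 0 < η ∧ ∀ β ∈ Set.Icc β₀ β₁, ∀ x : Fin d → ℝ, x - c ∈ S →
      (∀ j, ∑ i, n j i * x i ≤ b j β) → ∀ j, ∑ i, n j i * x i = b j β →
      ∑ i, n j i * f x i ≤ -η)
    (hc : ∀ j, ∑ i, n j i * c i < b j β₀)
    (hex : ∀ x : Fin d → ℝ, (∀ i, 0 < x i) → ∃ β, β₀ ≤ β ∧ ∀ j, ∑ i, n j i * x i ≤ b j β) :
    let K : Set (Fin d → ℝ) := {x | x - c ∈ S ∧ ∀ j, ∑ i, n j i * x i ≤ b j β₀}
    K ⊆ {x | (∀ i, 0 < x i) ∧ x - c ∈ S} ∧ c ∈ K ∧ IsCompact K ∧ Convex ℝ K ∧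
      (∀ x : ℝ → (Fin d → ℝ), IsForwardSolution f x → x 0 ∈ K → ∀ t : ℝ, 0 ≤ t → x t ∈ K) ∧
      (∀ x₀ : Fin d → ℝ, (∀ i, 0 < x₀ i) → x₀ - c ∈ S →
        (∃ x : ℝ → (Fin d → ℝ), IsForwardSolution f x ∧ x 0 = x₀) ∧
        (∀ x x' : ℝ → (Fin d → ℝ), IsForwardSolution f x → IsForwardSolution f x' →
          x 0 = x₀ → x' 0 = x₀ → ∀ t : ℝ, 0 ≤ t → x t = x' t) ∧
        (∀ x : ℝ → (Fin d → ℝ), IsForwardSolution f x → x 0 = x₀ →
          (∀ t : ℝ, 0 ≤ t → ∀ i, 0 < x t i) ∧ ∃ T : ℝ, 0 ≤ T ∧ ∀ t : ℝ, T ≤ t → x t ∈ K)) := by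
  classical
  intro K
  -- positivity from the box
  have hpos : ∀ β, β₀ ≤ β → ∀ x : Fin d → ℝ, (∀ j, ∑ i, n j i * x i ≤ b j β) → ∀ i, 0 < x i := by
    intro β hβ x hx i
    have h1 := (hbox β hβ x hx i).1
    have h2 : 0 < exp (-(r * β)) / 2 := by positivity
    linarith
  -- invariance for a field that equals f on K(β)
  have hinv : ∀ (g : (Fin d → ℝ) → (Fin d → ℝ)) (x : ℝ → Fin d → ℝ) (β : ℝ), β₀ ≤ β →
      (∀ t : ℝ, 0 ≤ t → HasDerivWithinAt x (g (x t)) (Set.Ici 0) t) →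
      (∀ t : ℝ, 0 ≤ t → x t - c ∈ S) →
      (∀ y, (∀ j, ∑ i, n j i * y i ≤ b j β) → g y = f y) →
      ∀ t₀ : ℝ, 0 ≤ t₀ → (∀ j, ∑ i, n j i * x t₀ i ≤ b j β) →
      ∀ t : ℝ, t₀ ≤ t → ∀ j, ∑ i, n j i * x t i ≤ b j β := by
    intro g x β hβ hx hslice hgf t₀ ht₀ hstart t ht
    obtain ⟨η, hη, hinβ⟩ := hin β hβ
    have := moving_barrier n b b' hb g x hx (β₁ := β) (ε := 0) (T := t) ht₀ hstart ?_ t ⟨ht, le_rfl⟩
    · simpa using this
    · intro u hu h1 j h2
      have hu0 : 0 ≤ u := ht₀.trans hu.1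
      simp only [zero_mul, sub_zero] at h1 h2 ⊢
      rw [hgf (x u) h1]
      have := hinβ β ⟨hβ, le_rfl⟩ (x u) (hslice u hu0) h1 j h2
      simp only [mul_neg, mul_zero]
      linarith
  -- absorption
  have habs : ∀ (x : ℝ → Fin d → ℝ) (β₁ : ℝ), β₀ ≤ β₁ → IsForwardSolution f x →
      (∀ t : ℝ, 0 ≤ t → x t - c ∈ S) → (∀ j, ∑ i, n j i * x 0 i ≤ b j β₁) →
      ∃ T : ℝ, 0 ≤ T ∧ (∀ t ∈ Set.Icc (0:ℝ) T, ∃ β, β₀ ≤ β ∧ ∀ j, ∑ i, n j i * x t i ≤ b j β) ∧
        ∀ j, ∑ i, n j i * x T i ≤ b j β₀ := by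
    intro x β₁ hβ₁ hx hslice hstart
    obtain ⟨η, hη, hinβ⟩ := hin β₁ hβ₁
    have hbd : ∀ j, ∃ C : ℝ, ∀ β ∈ Set.Icc β₀ β₁, ‖b' j β‖ ≤ C := fun j =>
      isCompact_Icc.exists_bound_of_continuousOn (hb' j).continuousOn
    choose C hC using hbd
    set M : ℝ := 1 + ∑ j, |C j| with hM
    have hMpos : 0 < M := by
      have : 0 ≤ ∑ j, |C j| := Finset.sum_nonneg fun j _ => abs_nonneg _
      linarith
    have hCM : ∀ j β, β ∈ Set.Icc β₀ β₁ → |b' j β| ≤ M := by
      intro j β hβ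
      have h1 := hC j β hβ
      rw [Real.norm_eq_abs] at h1
      have h2 : |C j| ≤ ∑ j, |C j| :=
        Finset.single_le_sum (f := fun j => |C j|) (fun j _ => abs_nonneg _) (Finset.mem_univ j)
      have h3 := le_abs_self (C j)
      linarith
    set ε : ℝ := η / (2 * M) with hε
    have hεpos : 0 < ε := by positivity
    have hεM : ε * M = η / 2 := by rw [hε]; field_simp
    set T : ℝ := (β₁ - β₀) / ε with hT
    have hT0 : 0 ≤ T := div_nonneg (by linarith) hεpos.le
    have hβt : ∀ t ∈ Set.Icc (0:ℝ) T, β₁ - ε * (t - 0) ∈ Set.Icc β₀ β₁ := by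
      intro t ht
      have h1 : ε * t ≤ β₁ - β₀ := by
        have := mul_le_mul_of_nonneg_left ht.2 hεpos.le
        rwa [hT, mul_div_cancel₀ _ hεpos.ne'] at this
      have h2 : 0 ≤ ε * t := mul_nonneg hεpos.le ht.1
      constructor <;> simp only [sub_zero] <;> linarith
    have hmv := moving_barrier n b b' hb f x hx (β₁ := β₁) (ε := ε) (t₀ := 0) (T := T) le_rfl hstart
      (by
        intro t ht h1 j h2
        have ht' : t ∈ Set.Icc (0:ℝ) T := ⟨ht.1, ht.2.le⟩
        have hβ := hβt t ht'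
        have h3 := hinβ _ hβ (x t) (hslice t ht.1) h1 j h2
        have h4 := hCM j _ hβ
        have h5 : b' j (β₁ - ε * (t - 0)) * ε ≤ M * ε :=
          mul_le_mul_of_nonneg_right ((le_abs_self _).trans h4) hεpos.le
        have h6 : M * ε = η / 2 := by rw [mul_comm]; exact hεM
        have h7 : b' j (β₁ - ε * (t - 0)) * (-ε) = -(b' j (β₁ - ε * (t - 0)) * ε) := by ring
        rw [h7]
        linarith)
    refine ⟨T, hT0, ?_, ?_⟩
    · intro t ht
      exact ⟨_, (hβt t ht).1, hmv t ht⟩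
    · have := hmv T ⟨hT0, le_rfl⟩
      have hval : β₁ - ε * (T - 0) = β₀ := by
        rw [sub_zero, hT, mul_div_cancel₀ _ hεpos.ne']; ring
      rwa [hval] at this
  -- slices
  have hslice : ∀ x : ℝ → Fin d → ℝ, IsForwardSolution f x → x 0 - c ∈ S →
      ∀ t : ℝ, 0 ≤ t → x t - c ∈ S := by
    intro x hx h0 t ht
    have := slice_of_solution S x (fun t => f (x t)) hx (fun t _ => hfS _) t ht
    have h1 : x t - c = (x t - x 0) + (x 0 - c) := by abel
    rw [h1]
    exact S.add_mem this h0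
  have hKpos : K ⊆ {x | (∀ i, 0 < x i) ∧ x - c ∈ S} := fun x hx =>
    ⟨hpos β₀ le_rfl x hx.2, hx.1⟩
  have hfc : Continuous f := hf.continuous
  refine ⟨hKpos, ?_, ?_, ?_, ?_, ?_⟩
  · refine ⟨by simp, fun j => (hc j).le⟩
  · -- compactness
    have hclosed : IsClosed K := by
      have h1 : IsClosed {x : Fin d → ℝ | x - c ∈ S} :=
        (Submodule.closed_of_finiteDimensional S).preimage (by fun_prop)
      have h2 : IsClosed {x : Fin d → ℝ | ∀ j, ∑ i, n j i * x i ≤ b j β₀} := by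
        have : {x : Fin d → ℝ | ∀ j, ∑ i, n j i * x i ≤ b j β₀} =
            ⋂ j, {x : Fin d → ℝ | ∑ i, n j i * x i ≤ b j β₀} := by
          ext x; simp
        rw [this]
        refine isClosed_iInter fun j => isClosed_le (by fun_prop) continuous_const
      exact h1.inter h2
    refine IsCompact.of_isClosed_subset (isCompact_Icc (a := fun _ => exp (-(r * β₀)) / 2)
      (b := fun _ => 2 * exp β₀)) hclosed ?_
    intro x hx
    have := hbox β₀ le_rfl x hx.2
    exact ⟨fun i => (this i).1, fun i => (this i).2⟩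
  · -- convexity
    intro x hx y hy p q hp hq hpq
    refine ⟨?_, fun j => ?_⟩
    · have h1 : p • x + q • y - c = p • (x - c) + q • (y - c) := by
        have : c = (p + q) • c := by rw [hpq, one_smul]
        nth_rewrite 1 [this]
        rw [add_smul, smul_sub, smul_sub]
        abel
      rw [h1]
      exact S.add_mem (S.smul_mem p hx.1) (S.smul_mem q hy.1)
    · have h1 : ∑ i, n j i * (p • x + q • y) i =
          p * ∑ i, n j i * x i + q * ∑ i, n j i * y i := by
        rw [Finset.mul_sum, Finset.mul_sum, ← Finset.sum_add_distrib]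
        refine Finset.sum_congr rfl fun i _ => ?_
        simp only [Pi.add_apply, Pi.smul_apply, smul_eq_mul]
        ring
      rw [h1]
      have h2 := hx.2 j
      have h3 := hy.2 j
      have h4 : b j β₀ = p * b j β₀ + q * b j β₀ := by
        rw [← add_mul, hpq, one_mul]
      rw [h4]
      exact add_le_add (mul_le_mul_of_nonneg_left h2 hp) (mul_le_mul_of_nonneg_left h3 hq)
  · -- invariance
    intro x hx h0 t ht
    refine ⟨hslice x hx h0.1 t ht, ?_⟩
    exact hinv f x β₀ le_rfl hx (hslice x hx h0.1) (fun _ _ => rfl) 0 le_rfl h0.2 t ht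
  · intro x₀ hx₀ hx₀S
    obtain ⟨β₁, hβ₁, hstart⟩ := hex x₀ hx₀
    set lo : ℝ := exp (-(r * β₁)) / 2 with hlo
    set hi : ℝ := 2 * exp β₁ with hhi
    set hi' : ℝ := max lo hi with hhi'
    have hlohi : lo ≤ hi' := le_max_left _ _
    -- f is Lipschitz on the box
    set B : Set (Fin d → ℝ) := Set.Icc (fun _ => lo) (fun _ => hi') with hB
    have hBc : IsCompact B := isCompact_Icc
    obtain ⟨Kf, hKf⟩ := (hf.locallyLipschitz.locallyLipschitzOn (s := B)).exists_lipschitzOnWith_of_compact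
      hBc
    have hKbox : ∀ y : Fin d → ℝ, (∀ j, ∑ i, n j i * y i ≤ b j β₁) → y ∈ B := by
      intro y hy
      have := hbox β₁ hβ₁ y hy
      exact ⟨fun i => (this i).1, fun i => (this i).2.trans (le_max_right _ _)⟩
    refine ⟨?_, ?_, ?_⟩
    · -- existence
      let clamp : (Fin d → ℝ) → (Fin d → ℝ) := fun y i => max lo (min hi' (y i))
      have hclampB : ∀ y, clamp y ∈ B := fun y =>
        ⟨fun i => le_max_left _ _, fun i => max_le hlohi (min_le_left _ _)⟩
      have hclampid : ∀ y ∈ B, clamp y = y := by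
        intro y hy
        funext i
        simp only [clamp]
        rw [min_eq_right (hy.2 i), max_eq_right (hy.1 i)]
      have hclampL : LipschitzWith 1 clamp := by
        refine LipschitzWith.of_dist_le_mul fun y z => ?_
        rw [NNReal.coe_one, one_mul]
        refine (dist_pi_le_iff dist_nonneg).2 fun i => ?_
        have h1 : dist (y i) (z i) ≤ dist y z := dist_le_pi_dist y z i
        refine le_trans ?_ h1
        simp only [clamp, Real.dist_eq]
        have h2 : |min hi' (y i) - min hi' (z i)| ≤ |y i - z i| := by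
          refine (abs_min_sub_min_le_max _ _ _ _).trans ?_
          simp
        have h3 : |max lo (min hi' (y i)) - max lo (min hi' (z i))| ≤
            |min hi' (y i) - min hi' (z i)| := by
          refine (abs_max_sub_max_le_max _ _ _ _).trans ?_
          simp
        exact h3.trans h2
      let g : (Fin d → ℝ) → (Fin d → ℝ) := fun y => f (clamp y)
      have hgL : LipschitzWith (Kf * 1) g := by
        refine LipschitzWith.of_dist_le_mul fun y z => ?_
        have h1 := hKf.dist_le_mul _ (hclampB y) _ (hclampB z)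
        have h2 := hclampL.dist_le_mul y z
        calc dist (g y) (g z) ≤ Kf * dist (clamp y) (clamp z) := h1
          _ ≤ Kf * (1 * dist y z) := by
            have : dist (clamp y) (clamp z) ≤ (1:ℝ) * dist y z := by simpa using h2
            exact mul_le_mul_of_nonneg_left this (NNReal.coe_nonneg _)
          _ = ((Kf * 1 : NNReal) : ℝ) * dist y z := by simp
      obtain ⟨L, hL⟩ := hBc.exists_bound_of_continuousOn hfc.continuousOn
      have hgB : ∀ y, ‖g y‖ ≤ (Real.toNNReal L : ℝ) := fun y =>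
        (hL _ (hclampB y)).trans (Real.le_coe_toNNReal L)
      obtain ⟨α, hα0, hα⟩ := exists_global_solution g _ _ hgL hgB x₀
      have hαS : ∀ t : ℝ, 0 ≤ t → α t - c ∈ S := by
        intro t ht
        have := slice_of_solution S α (fun t => g (α t)) hα (fun t _ => hfS _) t ht
        rw [hα0] at this
        have h1 : α t - c = (α t - x₀) + (x₀ - c) := by abel
        rw [h1]
        exact S.add_mem this hx₀S
      have hgf : ∀ y, (∀ j, ∑ i, n j i * y i ≤ b j β₁) → g y = f y := by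
        intro y hy
        simp only [g]
        rw [hclampid y (hKbox y hy)]
      have hαK := hinv g α β₁ hβ₁ hα hαS hgf 0 le_rfl (by rw [hα0]; exact hstart)
      refine ⟨α, ?_, hα0⟩
      intro t ht
      have h1 := hα t ht
      rwa [hgf _ (hαK t ht)] at h1
    · -- uniqueness
      intro x x' hx hx' h0 h0' t ht
      have hS1 := hslice x hx (by rw [h0]; exact hx₀S)
      have hS2 := hslice x' hx' (by rw [h0']; exact hx₀S)
      have hK1 := hinv f x β₁ hβ₁ hx hS1 (fun _ _ => rfl) 0 le_rfl (by rw [h0]; exact hstart)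
      have hK2 := hinv f x' β₁ hβ₁ hx' hS2 (fun _ _ => rfl) 0 le_rfl (by rw [h0']; exact hstart)
      have := ODE_solution_unique_of_mem_Icc_right (v := fun _ => f) (s := fun _ => B)
        (K := Kf) (f := x) (g := x') (a := 0) (b := t) (fun _ _ => hKf) ?_ ?_ ?_ ?_ ?_ ?_ ?_
      · exact this ⟨ht, le_rfl⟩
      · intro u hu
        exact (hx u hu.1).continuousWithinAt.mono fun w hw => Set.mem_Ici.2 hw.1
      · intro u hu
        exact (hx u hu.1).mono (Set.Ici_subset_Ici.2 hu.1)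
      · intro u hu
        exact hKbox _ (hK1 u hu.1)
      · intro u hu
        exact (hx' u hu.1).continuousWithinAt.mono fun w hw => Set.mem_Ici.2 hw.1
      · intro u hu
        exact (hx' u hu.1).mono (Set.Ici_subset_Ici.2 hu.1)
      · intro u hu
        exact hKbox _ (hK2 u hu.1)
      · rw [h0, h0']
    · -- positivity and absorption
      intro x hx h0
      have hS1 := hslice x hx (by rw [h0]; exact hx₀S)
      obtain ⟨T, hT0, hT1, hT2⟩ := habs x β₁ hβ₁ hx hS1 (by rw [h0]; exact hstart)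
      have hlate : ∀ t : ℝ, T ≤ t → x t ∈ K := fun t ht =>
        ⟨hS1 t (hT0.trans ht), hinv f x β₀ le_rfl hx hS1 (fun _ _ => rfl) T hT0 hT2 t ht⟩
      refine ⟨?_, T, hT0, hlate⟩
      intro t ht i
      rcases le_total t T with h | h
      · obtain ⟨β, hβ, hKβ⟩ := hT1 t ⟨ht, h⟩
        exact hpos β hβ _ hKβ i
      · exact (hKpos (hlate t h)).1 i

end Crest.Agent.Lib.MassPerm
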