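import Mathlib

/-!
# S0122 (permanence of weakly reversible mass action networks): shared definitions.

`E lam p y` is the tree energy `Σ_l [g_l y_l - (g_l - τ_l) exp (lam τ_l)]` of a path `p = (g, τ)`.
`aff a z` is the affine functional `Σ_l w_l z_l + κ` for `a = (w, κ)`.
`Tree k low top A` packages the output of the Tree Theorem (see `Tree.lean`).
-/

namespace Crest.Agent.Lib.MassPerm

open Real

/-- A path of a tree: slopes `g` and thresholds `τ`. -/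
abbrev Path (k : ℕ) := (Fin k → ℝ) × (Fin k → ℝ)

/-- The tree energy of a path `p = (g, τ)` at `y`. -/
noncomputable def E {k : ℕ} (lam : ℝ) (p : Path k) (y : Fin k → ℝ) : ℝ :=
  ∑ l, (p.1 l * y l - (p.1 l - p.2 l) * exp (lam * p.2 l))

/-- The affine functional `(w, κ)` at `z`. -/
def aff {k : ℕ} (a : (Fin k → ℝ) × ℝ) (z : Fin k → ℝ) : ℝ := ∑ l, a.1 l * z l + a.2

/-- Output of the Tree Theorem for `k` coordinates, window `[low, top]`, family `A`. -/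
structure Tree (k : ℕ) (low top : ℝ) (A : Finset ((Fin k → ℝ) × ℝ)) where
  paths : Finset (Path k)
  mu : ℝ
  rho : ℝ
  tstar : ℝ
  B : ℝ
  lam0 : ℝ
  mu_pos : 0 < mu
  rho_pos : 0 < rho
  tstar_lt : tstar < top
  lam0_pos : 0 < lam0
  top_le_B : |top| ≤ B
  g_le : ∀ p ∈ paths, ∀ l, p.1 l ≤ top
  tau_lt : ∀ p ∈ paths, ∀ l, p.2 l < p.1 l
  g_bd : ∀ p ∈ paths, ∀ l, |p.1 l| ≤ B
  tau_bd : ∀ p ∈ paths, ∀ l, |p.2 l| ≤ B
  anti : ∀ p ∈ paths, Antitone p.1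
  chain : ∀ j : ℕ, j ≤ k → ∃ p ∈ paths, ∀ l : Fin k,
    (l.val < j → p.1 l = top ∧ p.2 l ≤ tstar) ∧ (j ≤ l.val → p.2 l ≤ low)
  select : ∀ lam, lam0 ≤ lam → ∀ y : Fin k → ℝ, Antitone y →
    (∀ l, exp (lam * low) ≤ y l) → (∀ l, y l ≤ exp (lam * (top + rho))) →
    ∀ p ∈ paths, (∀ q ∈ paths, E lam q y ≤ E lam p y) →
    ∀ a ∈ A, 0 < aff a p.1 → mu ≤ aff a (fun l => log (y l) / lam)

end Crest.Agent.Lib.MassPerm
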