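import Crest.Agent.Lib.MassPerm.Defs

/-!
# Rearrangement: selection at an active constraint of a permutation invariant family.
-/

namespace Crest.Agent.Lib.MassPerm

open Real

/-- If `g` is antitone and no permutation of `y` increases `Σ g_l y_l`, then there is a permutation
`σ` fixing `g` (`g ∘ σ = g`) that sorts `y` decreasingly. -/
theorem exists_perm_sort {k : ℕ} (g y : Fin k → ℝ) (hg : Antitone g)
    (hmax : ∀ σ : Equiv.Perm (Fin k), ∑ l, g l * y (σ l) ≤ ∑ l, g l * y l) :
    ∃ σ : Equiv.Perm (Fin k), g ∘ σ = g ∧ Antitone (y ∘ σ) := by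
  classical
  let key : Fin k → ℝ ×ₗ ℝ := fun l => toLex (-g l, -y l)
  let σ : Equiv.Perm (Fin k) := Tuple.sort key
  have hmono : Monotone (key ∘ σ) := Tuple.monotone_sort key
  have hlex : ∀ l l', l ≤ l' →
      (-g (σ l) < -g (σ l')) ∨ (-g (σ l) = -g (σ l') ∧ -y (σ l) ≤ -y (σ l')) := by
    intro l l' hll
    have := hmono hll
    simpa [key, Prod.Lex.toLex_le_toLex] using this
  -- `g ∘ σ = g`
  have hgσ : g ∘ σ = g := by
    let f : Fin k → ℝ := fun l => -g l
    have h1 : Monotone (f ∘ σ) := by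
      intro l l' hll
      rcases hlex l l' hll with h | h
      · exact le_of_lt h
      · exact le_of_eq h.1
    have h2 : Monotone (f ∘ (1 : Equiv.Perm (Fin k))) := by
      intro l l' hll
      simpa [f] using hg hll
    have e1 := (Tuple.comp_sort_eq_comp_iff_monotone (f := f) (σ := σ)).2 h1
    have e2 := (Tuple.comp_sort_eq_comp_iff_monotone (f := f) (σ := 1)).2 h2
    have : f ∘ σ = f := by
      rw [e1, ← e2]; rfl
    funext l
    have := congrFun this l
    simpa [f] using this
  have hgσ' : ∀ l, g (σ l) = g l := fun l => congrFun hgσ l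
  refine ⟨σ, hgσ, ?_⟩
  -- the value at `y ∘ σ`
  have hval : ∑ l, g l * y (σ l) = ∑ l, g l * y l := by
    calc ∑ l, g l * y (σ l) = ∑ l, g (σ l) * y (σ l) := by
          refine Finset.sum_congr rfl fun l _ => ?_
          rw [hgσ']
      _ = ∑ l, g l * y l := Equiv.sum_comp σ (fun l => g l * y l)
  intro l l' hll
  rcases hlex l l' hll with h | h
  · -- strict: swap argument
    by_contra hcon
    have hy : y (σ l) < y (σ l') := by
      simpa [Function.comp] using not_le.mp hcon
    have hgt : g l' < g l := by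
      have : g (σ l') < g (σ l) := by linarith
      rwa [hgσ', hgσ'] at this
    have hne : l ≠ l' := by
      rintro rfl
      exact lt_irrefl _ hgt
    have hm := hmax (σ * Equiv.swap l l')
    have hdiff : ∑ m, g m * y ((σ * Equiv.swap l l') m) - ∑ m, g m * y (σ m)
        = (g l - g l') * (y (σ l') - y (σ l)) := by
      rw [← Finset.sum_sub_distrib]
      have hsub : ∀ m ∈ Finset.univ, m ≠ l → m ≠ l' →
          g m * y ((σ * Equiv.swap l l') m) - g m * y (σ m) = 0 := by
        intro m _ h1 h2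
        simp [Equiv.swap_apply_of_ne_of_ne h1 h2]
      rw [← Finset.add_sum_erase _ _ (Finset.mem_univ l),
        ← Finset.add_sum_erase _ _ (Finset.mem_erase.mpr ⟨hne.symm, Finset.mem_univ l'⟩)]
      rw [Finset.sum_eq_zero]
      · simp [Equiv.Perm.mul_apply]
        ring
      · intro m hm
        simp only [Finset.mem_erase, Finset.mem_univ, and_true] at hm
        exact hsub m (Finset.mem_univ m) hm.2 hm.1
    have hpos : 0 < (g l - g l') * (y (σ l') - y (σ l)) :=
      mul_pos (by linarith) (by linarith)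
    linarith
  · have := h.2
    simp only [Function.comp]
    linarith

/-- Sign-cell selection at an active constraint. -/
theorem sorted_star {k : ℕ} {low top : ℝ} {A : Finset ((Fin k → ℝ) × ℝ)} (T : Tree k low top A)
    (hA : ∀ a ∈ A, ∀ σ : Equiv.Perm (Fin k), (a.1 ∘ σ, a.2) ∈ A)
    (lam : ℝ) (hlam : T.lam0 ≤ lam) (y : Fin k → ℝ)
    (hlow : ∀ l, exp (lam * low) ≤ y l) (hup : ∀ l, y l ≤ exp (lam * (top + T.rho)))
    (b : ℝ) (hb : ∀ q ∈ T.paths, ∀ σ : Equiv.Perm (Fin k), E lam q (y ∘ σ) ≤ b)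
    (p : Path k) (hp : p ∈ T.paths) (hact : E lam p y = b) :
    ∀ a ∈ A, 0 < aff a p.1 → T.mu ≤ aff a (fun l => log (y l) / lam) := by
  classical
  intro a ha hpos
  -- `E` splits
  have hsplit : ∀ z : Fin k → ℝ, E lam p z =
      ∑ l, p.1 l * z l - ∑ l, (p.1 l - p.2 l) * exp (lam * p.2 l) := by
    intro z
    simp only [E, Finset.sum_sub_distrib]
  have hmax : ∀ σ : Equiv.Perm (Fin k), ∑ l, p.1 l * y (σ l) ≤ ∑ l, p.1 l * y l := by
    intro σ
    have h1 := hb p hp σ
    rw [← hact, hsplit, hsplit] at h1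
    have : ∑ l, p.1 l * (y ∘ σ) l = ∑ l, p.1 l * y (σ l) := rfl
    linarith
  obtain ⟨σ, hgσ, hanti⟩ := exists_perm_sort p.1 y (T.anti p hp) hmax
  have hgσ' : ∀ l, p.1 (σ l) = p.1 l := fun l => congrFun hgσ l
  have hval : ∑ l, p.1 l * y (σ l) = ∑ l, p.1 l * y l := by
    calc ∑ l, p.1 l * y (σ l) = ∑ l, p.1 (σ l) * y (σ l) := by
          refine Finset.sum_congr rfl fun l _ => ?_
          rw [hgσ']
      _ = ∑ l, p.1 l * y l := Equiv.sum_comp σ (fun l => p.1 l * y l)
  have hEσ : E lam p (y ∘ σ) = b := by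
    rw [← hact, hsplit, hsplit]
    have : ∑ l, p.1 l * (y ∘ σ) l = ∑ l, p.1 l * y (σ l) := rfl
    linarith
  have hsel := T.select lam hlam (y ∘ σ) hanti (fun l => hlow (σ l)) (fun l => hup (σ l)) p hp
    (fun q hq => by rw [hEσ]; exact hb q hq σ)
  have haσ := hA a ha σ
  have hpos' : 0 < aff (a.1 ∘ σ, a.2) p.1 := by
    have : aff (a.1 ∘ σ, a.2) p.1 = aff a p.1 := by
      unfold aff
      congr 1
      calc ∑ l, (a.1 ∘ σ) l * p.1 l = ∑ l, a.1 (σ l) * p.1 (σ l) := by
            refine Finset.sum_congr rfl fun l _ => ?_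
            simp only [Function.comp, hgσ']
        _ = ∑ l, a.1 l * p.1 l := Equiv.sum_comp σ (fun l => a.1 l * p.1 l)
    rw [this]; exact hpos
  have hfin := hsel _ haσ hpos'
  have : aff (a.1 ∘ σ, a.2) (fun l => log ((y ∘ σ) l) / lam) = aff a (fun l => log (y l) / lam) := by
    unfold aff
    congr 1
    exact Equiv.sum_comp σ (fun l => a.1 l * (log (y l) / lam))
  rwa [this] at hfin

end Crest.Agent.Lib.MassPerm
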