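import Crest.Agent.Lib.MassPerm.Tree
import Crest.Agent.Lib.MassPerm.Rearrange

/-!
# The polytope family for S0122.
-/

namespace Crest.Agent.Lib.MassPerm

open Real

namespace PolyAux

/-- The total cost of a path. -/
noncomputable def cost {k : ℕ} (lam : ℝ) (p : Path k) : ℝ :=
  ∑ l, (p.1 l - p.2 l) * exp (lam * p.2 l)

lemma E_eq {k : ℕ} (lam : ℝ) (p : Path k) (y : Fin k → ℝ) :
    E lam p y = ∑ l, p.1 l * y l - cost lam p := by
  simp [E, cost, Finset.sum_sub_distrib]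

lemma cost_nonneg {k : ℕ} (lam : ℝ) (p : Path k) (h : ∀ l, p.2 l < p.1 l) : 0 ≤ cost lam p :=
  Finset.sum_nonneg fun l _ => mul_nonneg (sub_nonneg.2 (h l).le) (exp_pos _).le

/-- Integer vectors with entries at most `M`, as affine functionals with zero constant. -/
noncomputable def famA (M k : ℕ) : Finset ((Fin k → ℝ) × ℝ) :=
  (Fintype.piFinset fun _ : Fin k => Finset.Icc (-(M : ℤ)) M).image
    (fun w => (fun l => ((w l : ℤ) : ℝ), (0 : ℝ)))

lemma mem_famA {M k : ℕ} (w : Fin k → ℤ) (h : ∀ l, |w l| ≤ (M : ℤ)) :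
    ((fun l => ((w l : ℤ) : ℝ)), (0 : ℝ)) ∈ famA M k := by
  refine Finset.mem_image.2 ⟨w, ?_, rfl⟩
  refine Fintype.mem_piFinset.2 fun l => ?_
  exact Finset.mem_Icc.2 (abs_le.1 (h l))

lemma famA_perm {M k : ℕ} : ∀ a ∈ famA M k, ∀ σ : Equiv.Perm (Fin k), (a.1 ∘ σ, a.2) ∈ famA M k := by
  intro a ha σ
  obtain ⟨w, hw, rfl⟩ := Finset.mem_image.1 ha
  have hw' := Fintype.mem_piFinset.1 hw
  refine Finset.mem_image.2 ⟨w ∘ σ, ?_, rfl⟩
  exact Fintype.mem_piFinset.2 fun l => hw' (σ l)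

/-- The full chain path has small cost. -/
lemma chain_cost {k : ℕ} {low top : ℝ} {A : Finset ((Fin k → ℝ) × ℝ)} (T : Tree k low top A) :
    ∃ L : ℝ, ∀ lam, L ≤ lam → ∃ p ∈ T.paths, (∀ l, p.1 l = top) ∧
      cost lam p ≤ exp (lam * top) / 2 := by
  obtain ⟨p, hp, hch⟩ := T.chain k le_rfl
  have hg : ∀ l, p.1 l = top := fun l => ((hch l).1 l.isLt).1
  have ht : ∀ l, p.2 l ≤ T.tstar := fun l => ((hch l).1 l.isLt).2
  set η := top - T.tstar with hη
  have hηpos : 0 < η := sub_pos.2 T.tstar_lt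
  have hB : 0 ≤ T.B := (abs_nonneg _).trans T.top_le_B
  refine ⟨max 0 (4 * k * T.B / η), fun lam hlam => ⟨p, hp, hg, ?_⟩⟩
  have hlam0 : 0 ≤ lam := (le_max_left _ _).trans hlam
  have hlam1 : 4 * k * T.B / η ≤ lam := (le_max_right _ _).trans hlam
  have hterm : ∀ l, (p.1 l - p.2 l) * exp (lam * p.2 l) ≤ 2 * T.B * exp (lam * T.tstar) := by
    intro l
    have h1 : p.1 l - p.2 l ≤ 2 * T.B := by
      have := T.tau_bd p hp l
      have h2 := T.g_bd p hp l
      have h3 := abs_le.1 this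
      have h4 := abs_le.1 h2
      linarith [h3.1, h4.2]
    have h2 : exp (lam * p.2 l) ≤ exp (lam * T.tstar) :=
      exp_le_exp.2 (mul_le_mul_of_nonneg_left (ht l) hlam0)
    have h3 : 0 ≤ p.1 l - p.2 l := sub_nonneg.2 (T.tau_lt p hp l).le
    exact mul_le_mul h1 h2 (exp_pos _).le (by linarith)
  have hsum : cost lam p ≤ k * (2 * T.B * exp (lam * T.tstar)) := by
    unfold cost
    calc ∑ l, (p.1 l - p.2 l) * exp (lam * p.2 l)
        ≤ ∑ _l : Fin k, 2 * T.B * exp (lam * T.tstar) := Finset.sum_le_sum fun l _ => hterm l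
      _ = k * (2 * T.B * exp (lam * T.tstar)) := by simp
  have hexp : exp (lam * top) = exp (lam * T.tstar) * exp (lam * η) := by
    rw [← exp_add]; congr 1; rw [hη]; ring
  have hbig : 4 * k * T.B ≤ exp (lam * η) := by
    have h1 : 4 * k * T.B ≤ lam * η := by
      rw [div_le_iff₀ hηpos] at hlam1; exact hlam1
    have h2 := add_one_le_exp (lam * η)
    linarith
  rw [hexp]
  have hE := exp_pos (lam * T.tstar)
  calc cost lam p ≤ k * (2 * T.B * exp (lam * T.tstar)) := hsum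
    _ = (4 * k * T.B) * exp (lam * T.tstar) / 2 := by ring
    _ ≤ exp (lam * η) * exp (lam * T.tstar) / 2 := by
        apply div_le_div_of_nonneg_right _ (by norm_num)
        exact mul_le_mul_of_nonneg_right hbig hE.le
    _ = exp (lam * T.tstar) * exp (lam * η) / 2 := by ring

/-- Lower bound on the sum from the full chain of a lower tree. -/
lemma lower_lb {k : ℕ} {low : ℝ} {A : Finset ((Fin k → ℝ) × ℝ)} (T : Tree k low (-1) A) {L : ℝ}
    (hL : ∀ lam, L ≤ lam → ∃ p ∈ T.paths, (∀ l, p.1 l = -1) ∧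
      cost lam p ≤ exp (lam * (-1)) / 2)
    (lam : ℝ) (hlam : L ≤ lam) (y : Fin k → ℝ)
    (hy : ∀ p ∈ T.paths, E lam p y ≤ -exp (-lam)) : exp (-lam) / 2 ≤ ∑ l, y l := by
  obtain ⟨p, hp, hg, hc⟩ := hL lam hlam
  have h := hy p hp
  rw [E_eq] at h
  have h1 : ∑ l, p.1 l * y l = -∑ l, y l := by
    rw [← Finset.sum_neg_distrib]; exact Finset.sum_congr rfl fun l _ => by rw [hg]; ring
  rw [h1] at h
  have h2 : lam * (-1) = -lam := by ring
  rw [h2] at hc
  linarith

/-- Upper bound on the sum from the full chain of the top tree. -/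
lemma upper_ub {k : ℕ} {low : ℝ} {A : Finset ((Fin k → ℝ) × ℝ)} (T : Tree k low 1 A) {L : ℝ}
    (hL : ∀ lam, L ≤ lam → ∃ p ∈ T.paths, (∀ l, p.1 l = 1) ∧
      cost lam p ≤ exp (lam * 1) / 2)
    (lam : ℝ) (hlam : L ≤ lam) (y : Fin k → ℝ)
    (hy : ∀ p ∈ T.paths, E lam p y ≤ exp lam) : ∑ l, y l ≤ 2 * exp lam := by
  obtain ⟨p, hp, hg, hc⟩ := hL lam hlam
  have h := hy p hp
  rw [E_eq] at h
  have h1 : ∑ l, p.1 l * y l = ∑ l, y l := Finset.sum_congr rfl fun l _ => by rw [hg]; ring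
  rw [h1] at h
  rw [mul_one] at hc
  have := exp_pos lam
  linarith

/-- The normal vector of a constraint. -/
noncomputable def nrm {k d : ℕ} (pm : Fin k → Fin d) (g : Fin k → ℝ) : Fin d → ℝ :=
  fun i => ∑ l, if pm l = i then g l else 0

lemma sum_nrm {k d : ℕ} (pm : Fin k → Fin d) (g : Fin k → ℝ) (x : Fin d → ℝ) :
    ∑ i, nrm pm g i * x i = ∑ l, g l * x (pm l) := by
  unfold nrm
  simp_rw [Finset.sum_mul]
  rw [Finset.sum_comm]
  refine Finset.sum_congr rfl fun l _ => ?_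
  rw [Finset.sum_eq_single (pm l)]
  · simp
  · intro i _ hi; simp [Ne.symm hi]
  · simp

lemma sum_mul_nrm {k d : ℕ} (pm : Fin k → Fin d) (g : Fin k → ℝ) (x : Fin d → ℝ) :
    ∑ i, x i * nrm pm g i = ∑ l, x (pm l) * g l := by
  have := sum_nrm pm g x
  simp_rw [mul_comm (x _)] 
  exact this

/-- Right hand side of a constraint. -/
noncomputable def bF {k : ℕ} (c s e : ℝ) (p : Path k) (t : ℝ) : ℝ :=
  cost (c * t) p + s * exp (e * t)

/-- Derivative of the right hand side of a constraint. -/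
noncomputable def bF' {k : ℕ} (c s e : ℝ) (p : Path k) (t : ℝ) : ℝ :=
  ∑ l, (p.1 l - p.2 l) * (exp (c * t * p.2 l) * (c * p.2 l)) + s * (exp (e * t) * e)

lemma hasDeriv_bF {k : ℕ} (c s e : ℝ) (p : Path k) (t : ℝ) :
    HasDerivAt (bF c s e p) (bF' c s e p t) t := by
  unfold bF bF' cost
  refine HasDerivAt.add ?_ ?_
  · refine HasDerivAt.fun_sum fun l _ => ?_
    refine HasDerivAt.const_mul _ ?_
    have h : HasDerivAt (fun x : ℝ => c * x * p.2 l) (c * p.2 l) t := by
      have := ((hasDerivAt_id t).const_mul c).mul_const (p.2 l)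
      simpa using this
    exact h.exp
  · refine HasDerivAt.const_mul _ ?_
    have h : HasDerivAt (fun x : ℝ => e * x) e t := by
      simpa using (hasDerivAt_id t).const_mul e
    exact h.exp

lemma cont_bF' {k : ℕ} (c s e : ℝ) (p : Path k) : Continuous (bF' c s e p) := by
  unfold bF'
  fun_prop

lemma con_iff {k d : ℕ} (pm : Fin k → Fin d) (p : Path k) (c s e t : ℝ) (x : Fin d → ℝ) :
    (∑ i, nrm pm p.1 i * x i ≤ bF c s e p t) ↔ E (c * t) p (x ∘ pm) ≤ s * exp (e * t) := by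
  rw [sum_nrm, E_eq]
  unfold bF
  simp only [Function.comp]
  constructor <;> intro h <;> linarith

lemma con_eq {k d : ℕ} (pm : Fin k → Fin d) (p : Path k) (c s e t : ℝ) (x : Fin d → ℝ) :
    (∑ i, nrm pm p.1 i * x i = bF c s e p t) ↔ E (c * t) p (x ∘ pm) = s * exp (e * t) := by
  rw [sum_nrm, E_eq]
  unfold bF
  simp only [Function.comp]
  constructor <;> intro h <;> linarith


/-! ### Levels -/

/-- A lower tree at level `m` with window scale `s`. -/
noncomputable def lowTree (M m : ℕ) (s : {s : ℝ // 1 ≤ s}) :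
    Tree (m + 1) (-2 * s.1) (-1) (famA M (m + 1)) :=
  Classical.choice (tree_exists (m + 1) _ _ (by have := s.2; linarith) _)

/-- The scale factor between consecutive levels. -/
noncomputable def fct (M d : ℕ) (μ : ℝ) : ℝ := 8 * ((M : ℝ) * d + 1) / min 1 μ

lemma eight_le_fct (M d : ℕ) {μ : ℝ} (hμ : 0 < μ) : 8 ≤ fct M d μ := by
  unfold fct
  have h1 : 0 < min 1 μ := lt_min one_pos hμ
  have h2 : min 1 μ ≤ 1 := min_le_left _ _
  rw [le_div_iff₀ h1]
  have h3 : (0 : ℝ) ≤ (M : ℝ) * d := by positivity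
  nlinarith

/-- The scales `σ_m`. -/
noncomputable def sig (M d : ℕ) : ℕ → {s : ℝ // 1 ≤ s}
  | 0 => ⟨1, le_rfl⟩
  | m + 1 => ⟨(sig M d m).1 * fct M d (lowTree M m (sig M d m)).mu, by
      have h1 := (sig M d m).2
      have h2 := eight_le_fct M d (lowTree M m (sig M d m)).mu_pos
      nlinarith⟩

/-- The scales as reals. -/
noncomputable def sg (M d m : ℕ) : ℝ := (sig M d m).1

/-- The lower tree of level `m`. -/
noncomputable def LT (M d m : ℕ) : Tree (m + 1) (-2 * sg M d m) (-1) (famA M (m + 1)) :=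
  lowTree M m (sig M d m)

/-- The scale quotient `q_m = σ_d / σ_m`. -/
noncomputable def qq (M d m : ℕ) : ℝ := sg M d d / sg M d m

lemma one_le_sg (M d m : ℕ) : 1 ≤ sg M d m := (sig M d m).2

lemma sg_pos (M d m : ℕ) : 0 < sg M d m := lt_of_lt_of_le one_pos (one_le_sg M d m)

lemma sg_zero (M d : ℕ) : sg M d 0 = 1 := rfl

lemma sg_succ (M d m : ℕ) : sg M d (m + 1) = sg M d m * fct M d (LT M d m).mu := rfl

lemma sg_le_succ (M d m : ℕ) : sg M d m ≤ sg M d (m + 1) := by
  rw [sg_succ]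
  have h1 := sg_pos M d m
  have h2 := eight_le_fct M d (LT M d m).mu_pos
  nlinarith

lemma sg_mono (M d : ℕ) : Monotone (sg M d) := monotone_nat_of_le_succ (sg_le_succ M d)

lemma one_le_qq (M d : ℕ) {m : ℕ} (hm : m ≤ d) : 1 ≤ qq M d m := by
  unfold qq
  rw [one_le_div (sg_pos M d m)]
  exact sg_mono M d hm

lemma qq_mul (M d m : ℕ) : qq M d m * sg M d m = sg M d d := by
  unfold qq
  exact div_mul_cancel₀ _ (sg_pos M d m).ne'

lemma qq_zero (M d : ℕ) : qq M d 0 = sg M d d := by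
  unfold qq; rw [sg_zero, div_one]

lemma qq_eq (M d m : ℕ) : qq M d m = qq M d (m + 1) * fct M d (LT M d m).mu := by
  unfold qq
  rw [sg_succ]
  have h1 := (sg_pos M d m).ne'
  have h2 : fct M d (LT M d m).mu ≠ 0 := by
    have := eight_le_fct M d (LT M d m).mu_pos
    linarith
  field_simp

lemma qq_mu (M d m : ℕ) :
    8 * ((M : ℝ) * d + 1) * qq M d (m + 1) ≤ qq M d m * (LT M d m).mu := by
  rw [qq_eq M d m]
  have hμ := (LT M d m).mu_pos
  have hq : 0 < qq M d (m + 1) := div_pos (sg_pos _ _ _) (sg_pos _ _ _)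
  have h1 : 0 < min 1 (LT M d m).mu := lt_min one_pos hμ
  have h2 : min 1 (LT M d m).mu ≤ (LT M d m).mu := min_le_right _ _
  have h3 : 1 ≤ fct M d (LT M d m).mu / (8 * ((M : ℝ) * d + 1)) * (LT M d m).mu := by
    unfold fct
    have h4 : (0:ℝ) < 8 * ((M : ℝ) * d + 1) := by positivity
    field_simp
    exact h2
  have h4 : (0:ℝ) < 8 * ((M : ℝ) * d + 1) := by positivity
  have h5 : 8 * ((M : ℝ) * d + 1) ≤ fct M d (LT M d m).mu * (LT M d m).mu := by
    have := mul_le_mul_of_nonneg_left h3 h4.le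
    have h6 : 8 * ((M : ℝ) * d + 1) *
        (fct M d (LT M d m).mu / (8 * ((M : ℝ) * d + 1)) * (LT M d m).mu)
        = fct M d (LT M d m).mu * (LT M d m).mu := by
      field_simp
    rw [h6] at this
    linarith
  calc 8 * ((M : ℝ) * d + 1) * qq M d (m + 1)
      = qq M d (m + 1) * (8 * ((M : ℝ) * d + 1)) := by ring
    _ ≤ qq M d (m + 1) * (fct M d (LT M d m).mu * (LT M d m).mu) :=
        mul_le_mul_of_nonneg_left h5 hq.le
    _ = qq M d (m + 1) * fct M d (LT M d m).mu * (LT M d m).mu := by ring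

/-- The top tree. -/
noncomputable def TT (M d : ℕ) : Tree d (-2 * sg M d d) 1 (famA M d) :=
  Classical.choice (tree_exists d _ _ (by have := one_le_sg M d d; linarith) _)

/-! ### Analysis at a fixed large scale -/

lemma exp_window {a : ℝ} (ha : 1 ≤ a) : exp (-(2 * a)) ≤ exp (-a) / 2 := by
  have h1 : (2:ℝ) ≤ exp a := by
    have h2 := add_one_le_exp a
    linarith
  have h3 : exp (-a) = exp (-(2 * a)) * exp a := by
    rw [← exp_add]; congr 1; ring
  rw [h3]
  have := exp_pos (-(2 * a))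
  nlinarith

/-- The lower bound for the sum over an embedded index set, extended by one index. -/
lemma compl_bound (M d m : ℕ) (hm : m < d) (e : Fin (m + 1) ↪ Fin d) (β : ℝ) (x : Fin d → ℝ)
    (hβ : 1 ≤ β)
    (hx : ∀ i, 0 < x i ∧ x i ≤ 2 * exp β)
    (hlb : ∀ (m' : ℕ), m' < d → ∀ e' : Fin (m' + 1) ↪ Fin d,
      exp (-(qq M d m' * β)) / 2 ≤ ∑ l, x (e' l))
    (hsum : ∑ l, x (e l) ≤ exp (-(qq M d m * β)))
    (j : Fin d) (hj : j ∉ Set.range e) :
    |log (x j)| ≤ 3 * (qq M d (m + 1) * β) := by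
  have hinj : Function.Injective (Fin.cons j e : Fin (m + 1 + 1) → Fin d) :=
    Fin.cons_injective_iff.2 ⟨hj, e.injective⟩
  have hcard : m + 1 + 1 ≤ d := by
    have := Fintype.card_le_of_injective _ hinj
    simpa using this
  have hm' : m + 1 < d := by omega
  set lam' := qq M d (m + 1) * β with hlam'
  have hq' : 1 ≤ qq M d (m + 1) := one_le_qq M d hm'.le
  have hlam'1 : β ≤ lam' := by rw [hlam']; nlinarith
  have h1 := hlb (m + 1) hm' ⟨_, hinj⟩
  have h2 : ∑ l, x ((⟨_, hinj⟩ : Fin (m + 1 + 1) ↪ Fin d) l) = x j + ∑ l, x (e l) := by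
    rw [Fin.sum_univ_succ]
    simp
  rw [h2] at h1
  have hF := eight_le_fct M d (LT M d m).mu_pos
  have hlam : qq M d m * β = lam' * fct M d (LT M d m).mu := by
    rw [qq_eq M d m, hlam']; ring
  have h3 : 7 ≤ qq M d m * β - lam' := by
    rw [hlam]
    have : 1 ≤ lam' := hβ.trans hlam'1
    nlinarith
  have h4 : exp (-(qq M d m * β)) ≤ exp (-lam') / 4 := by
    have h5 : exp (-lam') = exp (-(qq M d m * β)) * exp (qq M d m * β - lam') := by
      rw [← exp_add]; congr 1; ring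
    have h6 : (4:ℝ) ≤ exp (qq M d m * β - lam') := by
      have := add_one_le_exp (qq M d m * β - lam')
      linarith
    rw [h5]
    have := exp_pos (-(qq M d m * β))
    nlinarith
  have h7 : exp (-lam') / 4 ≤ x j := by
    have := exp_pos (-lam')
    linarith
  have hlam1 : 1 ≤ lam' := hβ.trans hlam'1
  have h8 : exp (-(3 * lam')) ≤ exp (-lam') / 4 := by
    have h9 : exp (-lam') = exp (-(3 * lam')) * exp (2 * lam') := by
      rw [← exp_add]; congr 1; ring
    have h10 : (4:ℝ) ≤ exp (2 * lam') := by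
      have h11 : exp (2 * lam') = exp lam' * exp lam' := by
        rw [← exp_add]; congr 1; ring
      have h12 : (2:ℝ) ≤ exp lam' := by
        have := add_one_le_exp lam'
        linarith
      rw [h11]; nlinarith
    rw [h9]
    have := exp_pos (-(3 * lam'))
    nlinarith
  have hxj := (hx j).1
  have hlow : -(3 * lam') ≤ log (x j) := (le_log_iff_exp_le hxj).2 (h8.trans h7)
  have hup : log (x j) ≤ 3 * lam' := by
    rw [log_le_iff_le_exp hxj]
    have h13 : (2:ℝ) ≤ exp 1 := by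
      have := add_one_le_exp (1:ℝ)
      linarith
    calc x j ≤ 2 * exp β := (hx j).2
      _ ≤ exp 1 * exp β := mul_le_mul_of_nonneg_right h13 (exp_pos _).le
      _ = exp (1 + β) := (exp_add _ _).symm
      _ ≤ exp (3 * lam') := exp_le_exp.2 (by linarith)
  exact abs_le.2 ⟨hlow, hup⟩

/-- A lower facet has the margin. -/
lemma low_facet (M d m : ℕ) (hm : m < d) (e : Fin (m + 1) ↪ Fin d)
    (p : Path (m + 1)) (hp : p ∈ (LT M d m).paths) (β : ℝ) (x : Fin d → ℝ)
    (hβ : 1 ≤ β) (hlam0 : (LT M d m).lam0 ≤ β)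
    (hx : ∀ i, exp (-(sg M d d * β)) / 2 ≤ x i ∧ x i ≤ 2 * exp β)
    (hlow : ∀ (m' : ℕ), m' < d → ∀ e' : Fin (m' + 1) ↪ Fin d, ∀ p' ∈ (LT M d m').paths,
      E (qq M d m' * β) p' (x ∘ e') ≤ -exp (-(qq M d m' * β)))
    (hlb : ∀ (m' : ℕ), m' < d → ∀ e' : Fin (m' + 1) ↪ Fin d,
      exp (-(qq M d m' * β)) / 2 ≤ ∑ l, x (e' l))
    (hact : E (qq M d m * β) p (x ∘ e) = -exp (-(qq M d m * β)))
    (w : Fin d → ℤ) (hw : ∀ i, |w i| ≤ (M : ℤ))
    (hpos : 0 < ∑ i, (w i : ℝ) * nrm e p.1 i) :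
    β ≤ ∑ i, (w i : ℝ) * log (x i) := by
  set lam := qq M d m * β with hlamdef
  set T := LT M d m with hT
  have hq : 1 ≤ qq M d m := one_le_qq M d hm.le
  have hlamβ : β ≤ lam := by rw [hlamdef]; nlinarith
  have hlampos : 0 < lam := by linarith
  have hsd : 1 ≤ sg M d d * β := by
    have := one_le_sg M d d
    nlinarith
  have hxpos : ∀ i, 0 < x i := fun i =>
    lt_of_lt_of_le (div_pos (exp_pos _) two_pos) (hx i).1
  -- the sum over the index set is small
  have hsum : ∑ l, x (e l) ≤ exp (-lam) := by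
    have h1 := hact
    rw [E_eq] at h1
    have h2 := cost_nonneg lam p (T.tau_lt p hp)
    have h3 : ∑ l, p.1 l * (x ∘ e) l ≤ -∑ l, x (e l) := by
      rw [← Finset.sum_neg_distrib]
      refine Finset.sum_le_sum fun l _ => ?_
      have h4 := T.g_le p hp l
      have h5 := hxpos (e l)
      simp only [Function.comp]
      nlinarith
    linarith
  -- window
  have hwlow : ∀ l, exp (lam * (-2 * sg M d m)) ≤ (x ∘ e) l := by
    intro l
    have h1 : lam * (-2 * sg M d m) = -(2 * (sg M d d * β)) := by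
      rw [hlamdef, ← qq_mul M d m]; ring
    rw [h1]
    exact (exp_window hsd).trans (hx (e l)).1
  have hwup : ∀ l, (x ∘ e) l ≤ exp (lam * (-1 + T.rho)) := by
    intro l
    have h1 : x (e l) ≤ ∑ l, x (e l) :=
      Finset.single_le_sum (f := fun l => x (e l)) (fun l _ => (hxpos (e l)).le) (Finset.mem_univ l)
    have h2 : exp (-lam) ≤ exp (lam * (-1 + T.rho)) := by
      apply exp_le_exp.2
      have := T.rho_pos
      nlinarith
    exact h1.trans (hsum.trans h2)
  have hb : ∀ q' ∈ T.paths, ∀ σ : Equiv.Perm (Fin (m + 1)), E lam q' ((x ∘ e) ∘ σ) ≤ -exp (-lam) := by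
    intro q' hq' σ
    have := hlow m hm (σ.toEmbedding.trans e) q' hq'
    exact this
  have ha := mem_famA (M := M) (k := m + 1) (fun l => w (e l)) (fun l => hw (e l))
  have hpos' : 0 < aff ((fun l => ((w (e l) : ℤ) : ℝ)), (0:ℝ)) p.1 := by
    unfold aff
    simp only [add_zero]
    have h1 := sum_mul_nrm e p.1 (fun i => (w i : ℝ))
    rw [h1] at hpos
    exact hpos
  have hmain := sorted_star T famA_perm lam (hlam0.trans hlamβ) (x ∘ e) hwlow hwup (-exp (-lam)) hb
    p hp hact _ ha hpos'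
  unfold aff at hmain
  simp only [add_zero, Function.comp] at hmain
  have hmain2 : lam * T.mu ≤ ∑ l, (w (e l) : ℝ) * log (x (e l)) := by
    have h1 : ∑ l, (w (e l) : ℝ) * (log (x (e l)) / lam)
        = (∑ l, (w (e l) : ℝ) * log (x (e l))) / lam := by
      rw [Finset.sum_div]
      exact Finset.sum_congr rfl fun l _ => by ring
    rw [h1, le_div_iff₀ hlampos] at hmain
    linarith
  -- decomposition
  set S : Finset (Fin d) := Finset.univ.map e with hS
  have hdec : ∑ i, (w i : ℝ) * log (x i)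
      = ∑ l, (w (e l) : ℝ) * log (x (e l)) + ∑ i ∈ Sᶜ, (w i : ℝ) * log (x i) := by
    rw [← Finset.sum_add_sum_compl S, hS, Finset.sum_map]
  set lam' := qq M d (m + 1) * β with hlam'
  have hq' : 1 ≤ qq M d (m + 1) ∨ m + 1 = d + 1 := Or.inl (by
    exact one_le_qq M d hm)
  have hq'1 : 1 ≤ qq M d (m + 1) := one_le_qq M d hm
  have hlam'β : β ≤ lam' := by rw [hlam']; nlinarith
  have hlam'pos : 0 < lam' := by linarith
  have hterm : ∀ i ∈ Sᶜ, -((M : ℝ) * (3 * lam')) ≤ (w i : ℝ) * log (x i) := by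
    intro i hi
    have hi' : i ∉ Set.range e := by
      intro ⟨l, hl⟩
      apply Finset.mem_compl.1 hi
      rw [hS, Finset.mem_map]
      exact ⟨l, Finset.mem_univ _, hl⟩
    have h1 := compl_bound M d m hm e β x hβ (fun i => ⟨hxpos i, (hx i).2⟩) hlb hsum i hi'
    have h2 : |(w i : ℝ)| ≤ (M : ℝ) := by exact_mod_cast hw i
    have h3 : |(w i : ℝ) * log (x i)| ≤ (M : ℝ) * (3 * lam') := by
      rw [abs_mul]
      exact mul_le_mul h2 h1 (abs_nonneg _) (Nat.cast_nonneg _)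
    exact (abs_le.1 h3).1
  have hrest : -((d : ℝ) * ((M : ℝ) * (3 * lam'))) ≤ ∑ i ∈ Sᶜ, (w i : ℝ) * log (x i) := by
    have h1 : ∑ i ∈ Sᶜ, -((M : ℝ) * (3 * lam')) ≤ ∑ i ∈ Sᶜ, (w i : ℝ) * log (x i) :=
      Finset.sum_le_sum hterm
    rw [Finset.sum_const, nsmul_eq_mul] at h1
    have h2 : ((Sᶜ).card : ℝ) ≤ d := by
      have := Finset.card_le_univ Sᶜ
      rw [Fintype.card_fin] at this
      exact_mod_cast this
    have h3 : (0:ℝ) ≤ (M : ℝ) * (3 * lam') := by positivity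
    nlinarith
  have hkey : 8 * ((M : ℝ) * d + 1) * lam' ≤ lam * T.mu := by
    have h1 := qq_mu M d m
    have h2 : 0 ≤ β := by linarith
    have := mul_le_mul_of_nonneg_right h1 h2
    rw [hlam', hlamdef]
    calc 8 * ((M : ℝ) * d + 1) * (qq M d (m + 1) * β)
        = 8 * ((M : ℝ) * d + 1) * qq M d (m + 1) * β := by ring
      _ ≤ qq M d m * (LT M d m).mu * β := this
      _ = qq M d m * β * T.mu := by rw [hT]; ring
  rw [hdec]
  have h0 : (0:ℝ) ≤ (M : ℝ) * d := by positivity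
  have h1 : (d : ℝ) * ((M : ℝ) * (3 * lam')) = 3 * ((M : ℝ) * d) * lam' := by ring
  have h2 : lam' ≤ 8 * ((M : ℝ) * d + 1) * lam' - 3 * ((M : ℝ) * d) * lam' := by
    nlinarith
  linarith

/-- A top facet has the margin. -/
lemma top_facet (M d : ℕ) (s : Equiv.Perm (Fin d))
    (p : Path d) (hp : p ∈ (TT M d).paths) (β : ℝ) (x : Fin d → ℝ)
    (hβ : 1 ≤ β) (hlam0 : (TT M d).lam0 ≤ β) (hρ : 1 ≤ β * (TT M d).rho)
    (hx : ∀ i, exp (-(sg M d d * β)) / 2 ≤ x i ∧ x i ≤ 2 * exp β)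
    (htop : ∀ s' : Equiv.Perm (Fin d), ∀ p' ∈ (TT M d).paths, E β p' (x ∘ s') ≤ exp β)
    (hact : E β p (x ∘ s) = exp β)
    (w : Fin d → ℤ) (hw : ∀ i, |w i| ≤ (M : ℤ))
    (hpos : 0 < ∑ i, (w i : ℝ) * nrm s p.1 i) :
    β * (TT M d).mu ≤ ∑ i, (w i : ℝ) * log (x i) := by
  set T := TT M d with hT
  have hβpos : 0 < β := by linarith
  have hsd : 1 ≤ sg M d d * β := by
    have := one_le_sg M d d
    nlinarith
  have hwlow : ∀ l, exp (β * (-2 * sg M d d)) ≤ (x ∘ s) l := by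
    intro l
    have h1 : β * (-2 * sg M d d) = -(2 * (sg M d d * β)) := by ring
    rw [h1]
    exact (exp_window hsd).trans (hx (s l)).1
  have hwup : ∀ l, (x ∘ s) l ≤ exp (β * (1 + T.rho)) := by
    intro l
    have h13 : (2:ℝ) ≤ exp (β * T.rho) := by
      have := add_one_le_exp (β * T.rho)
      linarith
    have h1 : exp (β * (1 + T.rho)) = exp (β * T.rho) * exp β := by
      rw [← exp_add]; congr 1; ring
    rw [h1]
    exact (hx (s l)).2.trans (mul_le_mul_of_nonneg_right h13 (exp_pos _).le)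
  have hb : ∀ q' ∈ T.paths, ∀ σ : Equiv.Perm (Fin d), E β q' ((x ∘ s) ∘ σ) ≤ exp β := by
    intro q' hq' σ
    exact htop (σ.trans s) q' hq'
  have ha := mem_famA (M := M) (k := d) (fun l => w (s l)) (fun l => hw (s l))
  have hpos' : 0 < aff ((fun l => ((w (s l) : ℤ) : ℝ)), (0:ℝ)) p.1 := by
    unfold aff
    simp only [add_zero]
    have h1 := sum_mul_nrm s p.1 (fun i => (w i : ℝ))
    rw [h1] at hpos
    exact hpos
  have hmain := sorted_star T famA_perm β hlam0 (x ∘ s) hwlow hwup (exp β) hb p hp hact _ ha hpos'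
  unfold aff at hmain
  simp only [add_zero, Function.comp] at hmain
  have h1 : ∑ l, (w (s l) : ℝ) * (log (x (s l)) / β)
      = (∑ l, (w (s l) : ℝ) * log (x (s l))) / β := by
    rw [Finset.sum_div]
    exact Finset.sum_congr rfl fun l _ => by ring
  rw [h1, le_div_iff₀ hβpos] at hmain
  have h2 : ∑ l, (w (s l) : ℝ) * log (x (s l)) = ∑ i, (w i : ℝ) * log (x i) :=
    Equiv.sum_comp s (fun i => (w i : ℝ) * log (x i))
  rw [h2] at hmain
  linarith

end PolyAux


open PolyAux in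
/-- The polytope family `K(β) = {x | ∀ j, ⟨n j, x⟩ ≤ b j β}`: fixed normals, `C¹` right sides;
coordinates of points of `K(β)` are in a box, every active normal satisfies the sign-cell margin,
every positive point is strictly inside for large `β`. -/
theorem polytope_family (d M : ℕ) :
    ∃ (J : Type) (_ : Fintype J) (n : J → Fin d → ℝ) (b b' : J → ℝ → ℝ) (r : ℝ),
      0 < r ∧
      (∀ j t, HasDerivAt (b j) (b' j t) t) ∧ (∀ j, Continuous (b' j)) ∧
      (∀ G : ℝ, ∃ β₀ : ℝ, ∀ β, β₀ ≤ β → ∀ x : Fin d → ℝ, (∀ j, ∑ i, n j i * x i ≤ b j β) →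
        (∀ i, exp (-(r * β)) / 2 ≤ x i ∧ x i ≤ 2 * exp β) ∧
        ∀ j, ∑ i, n j i * x i = b j β → ∀ w : Fin d → ℤ, (∀ i, |w i| ≤ M) →
          0 < ∑ i, (w i : ℝ) * n j i → G ≤ ∑ i, (w i : ℝ) * log (x i)) ∧
      (∀ x : Fin d → ℝ, (∀ i, 0 < x i) →
        ∃ β₀ : ℝ, ∀ β, β₀ ≤ β → ∀ j, ∑ i, n j i * x i < b j β) := by
  classical
  let J : Type := (Equiv.Perm (Fin d) × ↥(TT M d).paths) ⊕
    (Σ m : Fin d, (Fin (m.val + 1) ↪ Fin d) × ↥(LT M d m.val).paths)
  let n : J → Fin d → ℝ := fun j => match j with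
    | Sum.inl a => nrm a.1 a.2.1.1
    | Sum.inr ⟨_, a⟩ => nrm a.1 a.2.1.1
  let b : J → ℝ → ℝ := fun j => match j with
    | Sum.inl a => bF 1 1 1 a.2.1
    | Sum.inr ⟨m, a⟩ => bF (qq M d m.val) (-1) (-(qq M d m.val)) a.2.1
  let b' : J → ℝ → ℝ := fun j => match j with
    | Sum.inl a => bF' 1 1 1 a.2.1
    | Sum.inr ⟨m, a⟩ => bF' (qq M d m.val) (-1) (-(qq M d m.val)) a.2.1
  refine ⟨J, inferInstance, n, b, b', sg M d d, sg_pos M d d, ?_, ?_, ?_, ?_⟩
  · intro j t
    rcases j with a | ⟨m, a⟩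
    · exact hasDeriv_bF _ _ _ _ _
    · exact hasDeriv_bF _ _ _ _ _
  · intro j
    rcases j with a | ⟨m, a⟩
    · exact cont_bF' _ _ _ _
    · exact cont_bF' _ _ _ _
  · intro G
    obtain ⟨Lt, hLt⟩ := chain_cost (TT M d)
    choose Ll hLl using fun m : ℕ => chain_cost (LT M d m)
    have hev : ∀ᶠ β : ℝ in Filter.atTop, 1 ≤ β ∧ Lt ≤ β ∧ (TT M d).lam0 ≤ β ∧
        1 ≤ β * (TT M d).rho ∧ G ≤ β ∧ G ≤ β * (TT M d).mu ∧
        ∀ m : Fin d, Ll m.val ≤ β ∧ (LT M d m.val).lam0 ≤ β := by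
      have hρ : ∀ᶠ β : ℝ in Filter.atTop, 1 ≤ β * (TT M d).rho := by
        filter_upwards [Filter.eventually_ge_atTop (1 / (TT M d).rho)] with β hβ
        rwa [div_le_iff₀ (TT M d).rho_pos] at hβ
      have hμ : ∀ᶠ β : ℝ in Filter.atTop, G ≤ β * (TT M d).mu := by
        filter_upwards [Filter.eventually_ge_atTop (G / (TT M d).mu)] with β hβ
        rwa [div_le_iff₀ (TT M d).mu_pos] at hβ
      have hall : ∀ᶠ β : ℝ in Filter.atTop, ∀ m : Fin d, Ll m.val ≤ β ∧ (LT M d m.val).lam0 ≤ β :=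
        Filter.eventually_all.2 fun m =>
          (Filter.eventually_ge_atTop _).and (Filter.eventually_ge_atTop _)
      filter_upwards [Filter.eventually_ge_atTop 1, Filter.eventually_ge_atTop Lt,
        Filter.eventually_ge_atTop (TT M d).lam0, hρ, Filter.eventually_ge_atTop G, hμ, hall]
        with β h1 h2 h3 h4 h5 h6 h7
      exact ⟨h1, h2, h3, h4, h5, h6, h7⟩
    obtain ⟨β₀, hβ₀⟩ := Filter.eventually_atTop.1 hev
    refine ⟨β₀, fun β hβ x hx => ?_⟩
    obtain ⟨hβ1, hβLt, hβlam0, hβρ, hβG, hβGμ, hβm⟩ := hβ₀ β hβ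
    have htop : ∀ s' : Equiv.Perm (Fin d), ∀ p' ∈ (TT M d).paths, E β p' (x ∘ s') ≤ exp β := by
      intro s' p' hp'
      have h := (con_iff s' p' 1 1 1 β x).1 (hx (Sum.inl (s', ⟨p', hp'⟩)))
      simpa using h
    have hlow : ∀ (m' : ℕ), m' < d → ∀ e' : Fin (m' + 1) ↪ Fin d, ∀ p' ∈ (LT M d m').paths,
        E (qq M d m' * β) p' (x ∘ e') ≤ -exp (-(qq M d m' * β)) := by
      intro m' hm' e' p' hp'
      have h := (con_iff e' p' (qq M d m') (-1) (-(qq M d m')) β x).1
        (hx (Sum.inr ⟨⟨m', hm'⟩, (e', ⟨p', hp'⟩)⟩))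
      simpa [neg_mul] using h
    have hlb : ∀ (m' : ℕ), m' < d → ∀ e' : Fin (m' + 1) ↪ Fin d,
        exp (-(qq M d m' * β)) / 2 ≤ ∑ l, x (e' l) := by
      intro m' hm' e'
      have hq := one_le_qq M d hm'.le
      have hL : Ll m' ≤ qq M d m' * β := ((hβm ⟨m', hm'⟩).1).trans (by nlinarith)
      exact lower_lb (LT M d m') (hLl m') _ hL (x ∘ e') (fun p hp => hlow m' hm' e' p hp)
    have hlbi : ∀ i, exp (-(sg M d d * β)) / 2 ≤ x i := by
      intro i
      have hd : 0 < d := i.pos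
      have h := hlb 0 hd ⟨fun _ => i, fun a b _ => Fin.ext (by have := a.isLt; have := b.isLt; omega)⟩
      rw [qq_zero] at h
      simpa using h
    have hxpos : ∀ i, 0 < x i := fun i =>
      lt_of_lt_of_le (div_pos (exp_pos _) two_pos) (hlbi i)
    have hub : ∑ i, x i ≤ 2 * exp β :=
      upper_ub (TT M d) hLt β hβLt x (fun p hp => by
        have := htop 1 p hp
        simpa using this)
    have hbox : ∀ i, exp (-(sg M d d * β)) / 2 ≤ x i ∧ x i ≤ 2 * exp β := fun i =>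
      ⟨hlbi i, (Finset.single_le_sum (f := x) (fun l _ => (hxpos l).le) (Finset.mem_univ i)).trans hub⟩
    refine ⟨hbox, ?_⟩
    intro j hj w hw hpos
    rcases j with ⟨s, p, hp⟩ | ⟨⟨m, hm⟩, e, p, hp⟩
    · have hact := (con_eq s p 1 1 1 β x).1 hj
      have hact' : E β p (x ∘ s) = exp β := by simpa using hact
      exact hβGμ.trans (top_facet M d s p hp β x hβ1 hβlam0 hβρ hbox htop hact' w hw hpos)
    · have hact := (con_eq e p (qq M d m) (-1) (-(qq M d m)) β x).1 hj
      have hact' : E (qq M d m * β) p (x ∘ e) = -exp (-(qq M d m * β)) := by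
        simpa [neg_mul] using hact
      exact hβG.trans (low_facet M d m hm e p hp β x hβ1 (hβm ⟨m, hm⟩).2 hbox hlow hlb hact' w hw hpos)
  · intro x hx
    have hev : ∀ᶠ β : ℝ in Filter.atTop, ∀ j : J, ∑ i, n j i * x i < b j β := by
      refine Filter.eventually_all.2 fun j => ?_
      rcases j with ⟨s, p, hp⟩ | ⟨⟨m, hm⟩, e, p, hp⟩
      · have h1 : Filter.Tendsto (fun β : ℝ => exp β) Filter.atTop Filter.atTop :=
          Real.tendsto_exp_atTop
        filter_upwards [h1.eventually_gt_atTop (∑ i, nrm s p.1 i * x i)] with β hβ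
        have h2 := cost_nonneg (1 * β) p ((TT M d).tau_lt p hp)
        show ∑ i, nrm s p.1 i * x i < bF 1 1 1 p β
        unfold bF
        simp only [one_mul] at h2 ⊢
        linarith
      · have hq : 0 < qq M d m := lt_of_lt_of_le one_pos (one_le_qq M d hm.le)
        have ha : 0 < x (e 0) := hx _
        filter_upwards [Filter.eventually_gt_atTop (-log (x (e 0)) / qq M d m)] with β hβ
        have h2 := cost_nonneg (qq M d m * β) p ((LT M d m).tau_lt p hp)
        show ∑ i, nrm e p.1 i * x i < bF (qq M d m) (-1) (-(qq M d m)) p β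
        rw [sum_nrm]
        unfold bF
        have h3 : ∑ l, p.1 l * x (e l) ≤ -x (e 0) := by
          have h4 : ∑ l, p.1 l * x (e l) ≤ ∑ l, -x (e l) := by
            refine Finset.sum_le_sum fun l _ => ?_
            have h5 := (LT M d m).g_le p hp l
            have h6 := hx (e l)
            nlinarith
          have h7 : x (e 0) ≤ ∑ l, x (e l) :=
            Finset.single_le_sum (f := fun l => x (e l)) (fun l _ => (hx _).le) (Finset.mem_univ 0)
          rw [Finset.sum_neg_distrib] at h4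
          linarith
        have h8 : exp (-(qq M d m) * β) < x (e 0) := by
          rw [← lt_log_iff_exp_lt ha]
          rw [div_lt_iff₀ hq] at hβ
          nlinarith
        linarith
    obtain ⟨β₀, hβ₀⟩ := Filter.eventually_atTop.1 hev
    exact ⟨β₀, hβ₀⟩

end Crest.Agent.Lib.MassPerm
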