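import Crest.Prelude.Def_MassAction

/-!
# The reaction lemma for S0122.
-/

namespace Crest.Agent.Lib.MassPerm

open Real Crest.AnalysisR.MassAction

/-- `⟨n, y⟩` for a complex `y`. -/
noncomputable def hgt {d : ℕ} (n : Fin d → ℝ) (y : Fin d → ℕ) : ℝ := ∑ i, n i * (y i : ℝ)

/-- A reaction crossing the level `θ` downwards on every path from above `θ` to below `θ`. -/
private lemma exists_cross {d : ℕ} (R : Network d) (n : Fin d → ℝ) (θ : ℝ) {u v : Fin d → ℕ}
    (h : Relation.ReflTransGen (fun a b => (a, b) ∈ R) u v) (hu : θ ≤ hgt n u)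
    (hv : hgt n v < θ) :
    ∃ r ∈ R, θ ≤ hgt n r.1 ∧ hgt n r.2 < θ := by
  induction h with
  | refl => exact absurd hu (not_le.mpr hv)
  | @tail v' v _ hstep ih =>
    by_cases hc : θ ≤ hgt n v'
    · exact ⟨(v', v), hstep, hc, hv⟩
    · exact ih (not_le.mp hc)

private lemma pairing_field {d : ℕ} (R : Network d)
    (k : (Fin d → ℕ) × (Fin d → ℕ) → ℝ) (n x : Fin d → ℝ) :
    ∑ i, n i * field R k x i =
      ∑ r ∈ R, k r * (∏ i, x i ^ (r.1 i)) * (hgt n r.2 - hgt n r.1) := by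
  unfold field hgt reactionVector
  simp only [Finset.sum_apply, Pi.smul_apply, smul_eq_mul, Finset.mul_sum]
  rw [Finset.sum_comm]
  refine Finset.sum_congr rfl fun r _ => ?_
  rw [← Finset.sum_sub_distrib, Finset.mul_sum]
  refine Finset.sum_congr rfl fun i _ => ?_
  ring

private lemma log_mono {d : ℕ} (x : Fin d → ℝ) (hx : ∀ i, 0 < x i) (a : Fin d → ℕ) :
    log (∏ i, x i ^ (a i)) = ∑ i, (a i : ℝ) * log (x i) := by
  rw [Real.log_prod (fun i _ => (pow_pos (hx i) _).ne')]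
  refine Finset.sum_congr rfl fun i _ => ?_
  rw [Real.log_pow]

/-- Reaction lemma: if the sign-cell margin `G` holds at `x` for the normal `n` then the field
points strictly inward unless every reaction has `hgt n r.2 = hgt n r.1`. -/
theorem reaction_bound {d : ℕ} (R : Network d) (hR : IsWeaklyReversible R)
    (k : (Fin d → ℕ) × (Fin d → ℕ) → ℝ) (M : ℕ)
    (hM : ∀ r ∈ R, ∀ i, r.1 i ≤ M ∧ r.2 i ≤ M)
    (kmin kmax gap Δ G m₀ : ℝ) (hkmin : 0 < kmin) (hk : ∀ r ∈ R, kmin ≤ k r ∧ k r ≤ kmax)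
    (hgap : 0 < gap) (n : Fin d → ℝ)
    (hΔ : ∀ r ∈ R, |hgt n r.2 - hgt n r.1| ≤ Δ)
    (hgap' : ∀ r ∈ R, hgt n r.2 ≠ hgt n r.1 → gap ≤ |hgt n r.2 - hgt n r.1|)
    (hG : (R.card : ℝ) * kmax * Δ * exp (-G) ≤ kmin * gap / 2)
    (x : Fin d → ℝ) (hx : ∀ i, 0 < x i)
    (hm₀ : ∀ r ∈ R, m₀ ≤ ∏ i, x i ^ (r.1 i))
    (hsign : ∀ w : Fin d → ℤ, (∀ i, |w i| ≤ M) → 0 < ∑ i, (w i : ℝ) * n i →
      G ≤ ∑ i, (w i : ℝ) * log (x i))
    (r₀ : (Fin d → ℕ) × (Fin d → ℕ)) (hr₀ : r₀ ∈ R) (hne : hgt n r₀.2 ≠ hgt n r₀.1) :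
    ∑ i, n i * field R k x i ≤ -(kmin * gap / 2 * m₀) := by
  classical
  rw [pairing_field]
  set m : (Fin d → ℕ) × (Fin d → ℕ) → ℝ := fun r => ∏ i, x i ^ (r.1 i) with hm
  set D : (Fin d → ℕ) × (Fin d → ℕ) → ℝ := fun r => hgt n r.2 - hgt n r.1 with hD
  set T : (Fin d → ℕ) × (Fin d → ℕ) → ℝ := fun r => k r * m r * D r with hT
  change ∑ r ∈ R, T r ≤ _
  have hmpos : ∀ r, 0 < m r := fun r => Finset.prod_pos fun i _ => pow_pos (hx i) _
  have hcard : (0 : ℝ) < R.card := by
    exact_mod_cast Finset.card_pos.mpr ⟨r₀, hr₀⟩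
  -- negative part
  set N : ℝ := ∑ r ∈ R, max (-T r) 0 with hN
  have hN0 : 0 ≤ N := Finset.sum_nonneg fun r _ => le_max_right _ _
  have hNle : ∀ r ∈ R, -T r ≤ N := fun r hr =>
    (le_max_left _ _).trans
      (Finset.single_le_sum (f := fun r => max (-T r) 0) (fun r _ => le_max_right _ _) hr)
  -- a negative term is large
  have hneg : ∀ r ∈ R, D r < 0 → kmin * gap * m r ≤ -T r := by
    intro r hr hDr
    have h1 : gap ≤ -D r := by
      have := hgap' r hr (by intro h; simp only [hD, h, sub_self, lt_irrefl] at hDr)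
      rwa [abs_of_neg hDr] at this
    have h2 := (hk r hr).1
    have h3 := hmpos r
    have : kmin * gap * m r ≤ k r * (-D r) * m r :=
      mul_le_mul_of_nonneg_right (mul_le_mul h2 h1 hgap.le (hkmin.le.trans h2)) h3.le
    simp only [hT]
    nlinarith
  -- the crossing reaction
  have hcross : ∀ r ∈ R, 0 < D r → ∃ r₁ ∈ R, D r₁ < 0 ∧ hgt n r.2 ≤ hgt n r₁.1 ∧
      m r * exp G ≤ m r₁ := by
    intro r hr hDr
    have hlt : hgt n r.1 < hgt n r.2 := by simpa [hD] using hDr
    obtain ⟨r₁, hr₁, h1, h2⟩ := exists_cross R n (hgt n r.2) (hR r hr) le_rfl hlt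
    refine ⟨r₁, hr₁, ?_, h1, ?_⟩
    · simp only [hD]; linarith
    -- integer vector
    set w : Fin d → ℤ := fun i => (r₁.1 i : ℤ) - (r.1 i : ℤ) with hw
    have hwM : ∀ i, |w i| ≤ M := by
      intro i
      have h3 := (hM r hr i).1
      have h4 := (hM r₁ hr₁ i).1
      simp only [hw]
      rw [abs_le]
      constructor <;> omega
    have hwc : ∀ i, (w i : ℝ) = (r₁.1 i : ℝ) - (r.1 i : ℝ) := by
      intro i; simp [hw]
    have hwn : 0 < ∑ i, (w i : ℝ) * n i := by
      have : ∑ i, (w i : ℝ) * n i = hgt n r₁.1 - hgt n r.1 := by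
        unfold hgt
        rw [← Finset.sum_sub_distrib]
        refine Finset.sum_congr rfl fun i _ => ?_
        rw [hwc]; ring
      rw [this]; linarith
    have hGle := hsign w hwM hwn
    have hsum : ∑ i, (w i : ℝ) * log (x i) = log (m r₁) - log (m r) := by
      simp only [hm]
      rw [log_mono x hx, log_mono x hx, ← Finset.sum_sub_distrib]
      refine Finset.sum_congr rfl fun i _ => ?_
      rw [hwc]; ring
    rw [hsum] at hGle
    have h5 : exp G ≤ m r₁ / m r := by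
      rw [← Real.exp_log (div_pos (hmpos r₁) (hmpos r)), Real.log_div (hmpos r₁).ne' (hmpos r).ne']
      exact Real.exp_le_exp.mpr hGle
    calc m r * exp G ≤ m r * (m r₁ / m r) :=
          mul_le_mul_of_nonneg_left h5 (hmpos r).le
      _ = m r₁ := by field_simp [(hmpos r).ne']
  -- negative sum bounds below
  have hNlow : kmin * gap * m₀ ≤ N := by
    have hgk : 0 < kmin * gap := mul_pos hkmin hgap
    rcases lt_or_gt_of_ne hne with h | h
    · have hDr : D r₀ < 0 := by simp only [hD]; linarith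
      calc kmin * gap * m₀ ≤ kmin * gap * m r₀ :=
            mul_le_mul_of_nonneg_left (hm₀ r₀ hr₀) hgk.le
        _ ≤ -T r₀ := hneg r₀ hr₀ hDr
        _ ≤ N := hNle r₀ hr₀
    · have hDr : 0 < D r₀ := by simp only [hD]; linarith
      obtain ⟨r₁, hr₁, h1, _, _⟩ := hcross r₀ hr₀ hDr
      calc kmin * gap * m₀ ≤ kmin * gap * m r₁ :=
            mul_le_mul_of_nonneg_left (hm₀ r₁ hr₁) hgk.le
        _ ≤ -T r₁ := hneg r₁ hr₁ h1
        _ ≤ N := hNle r₁ hr₁
  -- each term's positive part is at most `N / (2 card)`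
  have hpos : ∀ r ∈ R, max (T r) 0 ≤ N / (2 * R.card) := by
    intro r hr
    refine max_le ?_ (by positivity)
    by_cases hDr : 0 < D r
    · obtain ⟨r₁, hr₁, h1, _, h3⟩ := hcross r hr hDr
      have hk1 := hk r hr
      have hkmax : 0 < kmax := lt_of_lt_of_le hkmin (hk1.1.trans hk1.2)
      have hkr : 0 < k r := lt_of_lt_of_le hkmin hk1.1
      have hDle : D r ≤ Δ := (le_abs_self _).trans (hΔ r hr)
      have hΔpos : 0 < Δ := lt_of_lt_of_le hDr hDle
      have hexp := Real.exp_pos G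
      have hexp' : exp (-G) = (exp G)⁻¹ := Real.exp_neg G
      have hmle : m r ≤ exp (-G) * m r₁ := by
        rw [hexp', inv_mul_eq_div, le_div_iff₀ hexp]
        exact h3
      have hTr : T r ≤ kmax * Δ * (exp (-G) * m r₁) := by
        simp only [hT]
        calc k r * m r * D r = k r * D r * m r := by ring
          _ ≤ kmax * Δ * m r := mul_le_mul_of_nonneg_right
              (mul_le_mul hk1.2 hDle hDr.le hkmax.le) (hmpos r).le
          _ ≤ kmax * Δ * (exp (-G) * m r₁) := mul_le_mul_of_nonneg_left hmle (by positivity)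
      have hTN : kmin * gap * m r₁ ≤ N := (hneg r₁ hr₁ h1).trans (hNle r₁ hr₁)
      rw [le_div_iff₀ (by positivity)]
      have hm1 := hmpos r₁
      have key : (R.card : ℝ) * kmax * Δ * exp (-G) * m r₁ ≤ kmin * gap / 2 * m r₁ :=
        mul_le_mul_of_nonneg_right hG hm1.le
      have h2c : T r * (2 * (R.card : ℝ)) ≤ kmax * Δ * (exp (-G) * m r₁) * (2 * (R.card : ℝ)) :=
        mul_le_mul_of_nonneg_right hTr (by positivity)
      nlinarith
    · have hT0 : T r ≤ 0 := by
        have hkr : 0 < k r := lt_of_lt_of_le hkmin (hk r hr).1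
        simp only [hT]
        exact mul_nonpos_of_nonneg_of_nonpos (mul_pos hkr (hmpos r)).le (not_lt.mp hDr)
      exact hT0.trans (by positivity)
  -- conclude
  have hdecomp : ∑ r ∈ R, T r = ∑ r ∈ R, max (T r) 0 - N := by
    rw [hN, ← Finset.sum_sub_distrib]
    refine Finset.sum_congr rfl fun r _ => ?_
    rcases le_total (T r) 0 with h | h
    · rw [max_eq_right h, max_eq_left (by linarith)]; ring
    · rw [max_eq_left h, max_eq_right (by linarith)]; ring
  have hP : ∑ r ∈ R, max (T r) 0 ≤ N / 2 := by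
    calc ∑ r ∈ R, max (T r) 0 ≤ ∑ _r ∈ R, N / (2 * R.card) := Finset.sum_le_sum hpos
      _ = (R.card : ℝ) * (N / (2 * R.card)) := by
          rw [Finset.sum_const, nsmul_eq_mul]
      _ = N / 2 := by field_simp
  rw [hdecomp]
  nlinarith

end Crest.Agent.Lib.MassPerm
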