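import Crest.Agent.Lib.MassPerm.Defs

/-!
# The Tree Theorem for S0122.
-/

namespace Crest.Agent.Lib.MassPerm

open Real Filter

/-- **Chain lemma** (Cousin type). -/
theorem chain_lemma (low top : ℝ) (h : low ≤ top) (r : ℝ → ℝ)
    (hr : ∀ v ∈ Set.Icc low top, 0 < r v) :
    ∃ F : Finset ℝ, (∀ v ∈ F, v ∈ Set.Icc low top) ∧ top ∈ F ∧
      (∀ v ∈ F, v ≠ top → ∃ v' ∈ F, v < v' ∧ v' - r v' < v + r v) ∧
      (∃ v₀ ∈ F, v₀ - r v₀ < low) := by
  classical
  let P : ℝ → Prop := fun t => ∃ F : Finset ℝ, (∀ v ∈ F, v ∈ Set.Icc t top) ∧ top ∈ F ∧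
    (∀ v ∈ F, v ≠ top → ∃ v' ∈ F, v < v' ∧ v' - r v' < v + r v) ∧ (∃ v₀ ∈ F, v₀ - r v₀ < t)
  let Z : Set ℝ := {t | t ∈ Set.Icc low top ∧ P t}
  have htopI : top ∈ Set.Icc low top := ⟨h, le_rfl⟩
  have htop : top ∈ Z := by
    refine ⟨htopI, {top}, ?_, by simp, ?_, top, by simp, by linarith [hr top htopI]⟩
    · intro v hv
      rw [Finset.mem_singleton] at hv
      subst hv
      exact ⟨le_rfl, le_rfl⟩
    · intro v hv hne
      exact absurd (Finset.mem_singleton.mp hv) hne
  have hbdd : BddBelow Z := ⟨low, fun t ht => ht.1.1⟩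
  set t0 := sInf Z with ht0def
  have ht0mem : t0 ∈ Set.Icc low top :=
    ⟨le_csInf ⟨top, htop⟩ fun t ht => ht.1.1, csInf_le hbdd htop⟩
  obtain ⟨t, htZ, htlt⟩ := exists_lt_of_csInf_lt ⟨top, htop⟩
    (show sInf Z < t0 + r t0 by linarith [hr t0 ht0mem])
  have ht0t : t0 ≤ t := csInf_le hbdd htZ
  obtain ⟨htI, F, hF1, hF2, hF3, v₀, hv₀, hv₀lt⟩ := htZ
  -- the enlarged family
  have hF1' : ∀ v ∈ insert t0 F, v ∈ Set.Icc t0 top := by
    intro v hv
    rcases Finset.mem_insert.mp hv with rfl | hv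
    · exact ⟨le_rfl, ht0mem.2⟩
    · exact ⟨ht0t.trans (hF1 v hv).1, (hF1 v hv).2⟩
  have hF3' : ∀ v ∈ insert t0 F, v ≠ top → ∃ v' ∈ insert t0 F, v < v' ∧ v' - r v' < v + r v := by
    intro v hv hne
    by_cases hvF : v ∈ F
    · obtain ⟨v', hv', h1, h2⟩ := hF3 v hvF hne
      exact ⟨v', Finset.mem_insert_of_mem hv', h1, h2⟩
    · have hv0 : v = t0 := by
        rcases Finset.mem_insert.mp hv with h | h
        · exact h
        · exact absurd h hvF
      subst hv0
      refine ⟨v₀, Finset.mem_insert_of_mem hv₀, ?_, by linarith⟩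
      have h1 : t0 ≤ v₀ := ht0t.trans (hF1 v₀ hv₀).1
      rcases h1.lt_or_eq with h1 | h1
      · exact h1
      · exact absurd (h1 ▸ hv₀) hvF
  have ht0low : t0 = low := by
    by_contra hne
    have hlt : low < t0 := lt_of_le_of_ne ht0mem.1 (Ne.symm hne)
    have hrpos := hr t0 ht0mem
    set s := max low (t0 - r t0 / 2) with hs
    have hst0 : s < t0 := max_lt hlt (by linarith)
    have hsZ : s ∈ Z := by
      refine ⟨⟨le_max_left _ _, hst0.le.trans ht0mem.2⟩, insert t0 F, ?_, ?_, hF3', t0,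
        Finset.mem_insert_self _ _, ?_⟩
      · intro v hv
        exact ⟨hst0.le.trans (hF1' v hv).1, (hF1' v hv).2⟩
      · exact Finset.mem_insert_of_mem hF2
      · have : t0 - r t0 / 2 ≤ s := le_max_right _ _
        linarith
    have : t0 ≤ s := csInf_le hbdd hsZ
    linarith
  refine ⟨insert t0 F, ?_, Finset.mem_insert_of_mem hF2, hF3', t0, Finset.mem_insert_self _ _, ?_⟩
  · intro v hv
    have := hF1' v hv
    rw [ht0low] at this
    exact this
  · rw [← ht0low]
    linarith [hr t0 ht0mem]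

/-- Existence of a threshold index for an antitone sequence. -/
lemma threshold_split {k : ℕ} (y : Fin k → ℝ) (hy : Antitone y) (Y : ℝ) :
    ∃ j : ℕ, j ≤ k ∧ ∀ l : Fin k, (l.val < j → Y ≤ y l) ∧ (j ≤ l.val → y l < Y) := by
  classical
  by_cases h : ∀ l, Y ≤ y l
  · exact ⟨k, le_rfl, fun l => ⟨fun _ => h l, fun h' => absurd l.2 (not_lt.mpr h')⟩⟩
  · push Not at h
    have hne : (Finset.univ.filter fun l => y l < Y).Nonempty := by
      obtain ⟨l, hl⟩ := h
      exact ⟨l, by simp [hl]⟩
    set l₀ := (Finset.univ.filter fun l => y l < Y).min' hne with hl₀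
    have hl₀mem : y l₀ < Y := by
      have := Finset.min'_mem _ hne
      simpa using this
    refine ⟨l₀.val, l₀.2.le, fun l => ⟨fun hlt => ?_, fun hle => ?_⟩⟩
    · by_contra hcon
      push Not at hcon
      have : l₀ ≤ l := Finset.min'_le _ _ (by simp [hcon])
      exact absurd hlt (not_lt.mpr this)
    · exact lt_of_le_of_lt (hy (Fin.le_def.mpr hle)) hl₀mem

/-- The slice of an affine functional at first coordinate `v`. -/
def slice {k : ℕ} (v : ℝ) (a : (Fin (k + 1) → ℝ) × ℝ) : (Fin k → ℝ) × ℝ :=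
  (Fin.tail a.1, a.2 + a.1 0 * v)

lemma aff_cons {k : ℕ} (a : (Fin (k + 1) → ℝ) × ℝ) (v : ℝ) (z : Fin k → ℝ) (u : ℝ) :
    aff a (Fin.cons u z) = aff (slice v a) z + a.1 0 * (u - v) := by
  unfold aff slice
  rw [Fin.sum_univ_succ]
  simp only [Fin.cons_zero, Fin.cons_succ, Fin.tail]
  ring

lemma aff_of_tail {k : ℕ} (a : (Fin (k + 1) → ℝ) × ℝ) (v : ℝ) (ζ : Fin (k + 1) → ℝ) :
    aff a ζ = aff (slice v a) (Fin.tail ζ) + a.1 0 * (ζ 0 - v) := by
  rw [← aff_cons]
  simp

/-- Prepend a node to a path. -/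
def consPath {k : ℕ} (v t : ℝ) (q : Path k) : Path (k + 1) := (Fin.cons v q.1, Fin.cons t q.2)

lemma E_cons {k : ℕ} (lam v t : ℝ) (q : Path k) (y : Fin (k + 1) → ℝ) :
    E lam (consPath v t q) y = v * y 0 - (v - t) * exp (lam * t) + E lam q (Fin.tail y) := by
  unfold E consPath
  rw [Fin.sum_univ_succ]
  simp [Fin.tail]

lemma antitone_cons {k : ℕ} (v : ℝ) (h : Fin k → ℝ) (hv : ∀ l, h l ≤ v) (hh : Antitone h) :
    Antitone (Fin.cons v h : Fin (k + 1) → ℝ) := by
  intro a b hab
  induction b using Fin.cases with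
  | zero =>
    have : a = 0 := by simpa using hab
    subst this; exact le_rfl
  | succ b =>
    induction a using Fin.cases with
    | zero => simpa using hv b
    | succ a =>
      simp only [Fin.cons_succ]
      exact hh (Fin.succ_le_succ_iff.mp hab)

/-- Upper bound of the energy by the top slope. -/
lemma E_le_top {k : ℕ} (lam v : ℝ) (q : Path k) (y : Fin k → ℝ)
    (h1 : ∀ l, q.1 l ≤ v) (h2 : ∀ l, q.2 l < q.1 l) (hy : ∀ l, 0 < y l) :
    E lam q y ≤ v * ∑ l, y l := by
  unfold E
  rw [Finset.mul_sum]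
  refine Finset.sum_le_sum fun l _ => ?_
  have h3 : 0 ≤ (q.1 l - q.2 l) * exp (lam * q.2 l) :=
    mul_nonneg (sub_nonneg.mpr (h2 l).le) (exp_pos _).le
  have h4 : q.1 l * y l ≤ v * y l := mul_le_mul_of_nonneg_right (h1 l) (hy l).le
  linarith

/-- Upper bound of the energy. -/
lemma E_le_bound {k : ℕ} (lam B Y : ℝ) (q : Path k) (y : Fin k → ℝ)
    (h1 : ∀ l, |q.1 l| ≤ B) (h2 : ∀ l, q.2 l < q.1 l) (hy : ∀ l, 0 < y l) (hY : ∀ l, y l ≤ Y)
    (hB : 0 ≤ B) :
    E lam q y ≤ k * (B * Y) := by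
  unfold E
  have : ∑ l : Fin k, (q.1 l * y l - (q.1 l - q.2 l) * exp (lam * q.2 l))
      ≤ ∑ _l : Fin k, (B * Y) := by
    refine Finset.sum_le_sum fun l _ => ?_
    have h3 : 0 ≤ (q.1 l - q.2 l) * exp (lam * q.2 l) :=
      mul_nonneg (sub_nonneg.mpr (h2 l).le) (exp_pos _).le
    have h4 : q.1 l * y l ≤ B * Y :=
      (mul_le_mul_of_nonneg_right ((le_abs_self _).trans (h1 l)) (hy l).le).trans
        (mul_le_mul_of_nonneg_left (hY l) hB)
    linarith
  simpa using this

/-- Lower bound of the energy of a path with low thresholds. -/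
lemma E_ge_low {k : ℕ} (lam low B Y : ℝ) (hlam : 0 < lam) (q : Path k) (y : Fin k → ℝ)
    (h1 : ∀ l, |q.1 l| ≤ B) (h2 : ∀ l, |q.2 l| ≤ B) (h3 : ∀ l, q.2 l ≤ low)
    (h4 : ∀ l, q.2 l < q.1 l)
    (hy : ∀ l, exp (lam * low) ≤ y l) (hY : ∀ l, y l ≤ Y) :
    - (k * (3 * B * Y)) ≤ E lam q y := by
  unfold E
  have : ∑ _l : Fin k, (-(3 * B * Y))
      ≤ ∑ l : Fin k, (q.1 l * y l - (q.1 l - q.2 l) * exp (lam * q.2 l)) := by
    refine Finset.sum_le_sum fun l _ => ?_
    have hyl : 0 < y l := (exp_pos _).trans_le (hy l)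
    have hB : 0 ≤ B := (abs_nonneg _).trans (h1 l)
    have he : exp (lam * q.2 l) ≤ y l :=
      (exp_le_exp.mpr (mul_le_mul_of_nonneg_left (h3 l) hlam.le)).trans (hy l)
    have hd0 : 0 ≤ q.1 l - q.2 l := sub_nonneg.mpr (h4 l).le
    have hd : q.1 l - q.2 l ≤ 2 * B := by
      have := abs_le.mp (h1 l); have := abs_le.mp (h2 l); linarith
    have h5 : (q.1 l - q.2 l) * exp (lam * q.2 l) ≤ 2 * B * y l :=
      mul_le_mul hd he (exp_pos _).le (by linarith)
    have h6 : -(B * y l) ≤ q.1 l * y l := by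
      have := (abs_le.mp (h1 l)).1
      nlinarith
    have h7 : B * y l ≤ B * Y := mul_le_mul_of_nonneg_left (hY l) hB
    nlinarith
  simpa using this

/-- Lower bound of the energy of a chain path against the top slope. -/
lemma E_ge_chain {k : ℕ} (lam low B Y v tst : ℝ) (hlam : 0 < lam) (q : Path k) (y : Fin k → ℝ)
    (j : ℕ) (hv : |v| ≤ B)
    (h1 : ∀ l, |q.1 l| ≤ B) (h2 : ∀ l, |q.2 l| ≤ B) (h4 : ∀ l, q.2 l < q.1 l)
    (hy : ∀ l, exp (lam * low) ≤ y l)
    (hch : ∀ l : Fin k, (l.val < j → q.1 l = v ∧ q.2 l ≤ tst) ∧ (j ≤ l.val → q.2 l ≤ low))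
    (hsplit : ∀ l : Fin k, j ≤ l.val → y l < Y)
    (hcost : exp (lam * tst) ≤ Y) (hYpos : 0 < Y) :
    v * ∑ l, y l - k * (4 * B * Y) ≤ E lam q y := by
  unfold E
  have : ∑ l : Fin k, (v * y l - 4 * B * Y)
      ≤ ∑ l : Fin k, (q.1 l * y l - (q.1 l - q.2 l) * exp (lam * q.2 l)) := by
    refine Finset.sum_le_sum fun l _ => ?_
    have hyl : 0 < y l := (exp_pos _).trans_le (hy l)
    have hB : 0 ≤ B := (abs_nonneg _).trans hv
    have hd0 : 0 ≤ q.1 l - q.2 l := sub_nonneg.mpr (h4 l).le
    have hd : q.1 l - q.2 l ≤ 2 * B := by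
      have := abs_le.mp (h1 l); have := abs_le.mp (h2 l); linarith
    by_cases hl : l.val < j
    · obtain ⟨h5, h6⟩ := (hch l).1 hl
      have he : exp (lam * q.2 l) ≤ Y :=
        (exp_le_exp.mpr (mul_le_mul_of_nonneg_left h6 hlam.le)).trans hcost
      have h7 : (q.1 l - q.2 l) * exp (lam * q.2 l) ≤ 2 * B * Y :=
        mul_le_mul hd he (exp_pos _).le (by linarith)
      rw [h5] at h7 ⊢
      have h8 : 0 ≤ B * Y := mul_nonneg hB hYpos.le
      nlinarith
    · have hl' : j ≤ l.val := not_lt.mp hl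
      have h5 := (hch l).2 hl'
      have h6 := hsplit l hl'
      have he : exp (lam * q.2 l) ≤ y l :=
        (exp_le_exp.mpr (mul_le_mul_of_nonneg_left h5 hlam.le)).trans (hy l)
      have h7 : (q.1 l - q.2 l) * exp (lam * q.2 l) ≤ 2 * B * y l :=
        mul_le_mul hd he (exp_pos _).le (by linarith)
      have h8 : -(B * y l) ≤ q.1 l * y l := by
        have := (abs_le.mp (h1 l)).1
        nlinarith
      have h9 : v * y l ≤ B * y l := by
        have := (abs_le.mp hv).2
        nlinarith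
      have h10 : B * y l ≤ B * Y := mul_le_mul_of_nonneg_left h6.le hB
      nlinarith
  have h2' : ∑ l : Fin k, (v * y l - 4 * B * Y) = v * ∑ l, y l - k * (4 * B * Y) := by
    rw [Finset.sum_sub_distrib, Finset.mul_sum]
    simp
  rw [← h2']
  exact this


lemma eventually_mul_exp_le (C D a b : ℝ) (hD : 0 < D) (hab : a < b) :
    ∀ᶠ lam in atTop, C * exp (lam * a) ≤ D * exp (lam * b) := by
  have h1 : Tendsto (fun lam : ℝ => exp (lam * (b - a))) atTop atTop :=
    tendsto_exp_atTop.comp (tendsto_id.atTop_mul_const (sub_pos.mpr hab))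
  filter_upwards [h1.eventually_ge_atTop (C / D)] with lam hlam
  have h2 : exp (lam * b) = exp (lam * (b - a)) * exp (lam * a) := by
    rw [← exp_add]; congr 1; ring
  rw [h2]
  have h3 : C = C / D * D := by field_simp
  calc C * exp (lam * a) = C / D * (D * exp (lam * a)) := by rw [h3]; field_simp
    _ ≤ exp (lam * (b - a)) * (D * exp (lam * a)) :=
        mul_le_mul_of_nonneg_right hlam (by positivity)
    _ = D * (exp (lam * (b - a)) * exp (lam * a)) := by ring

lemma exists_pos_le_finset {ι : Type} (F : Finset ι) (f : ι → ℝ) (hf : ∀ v ∈ F, 0 < f v) :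
    ∃ m : ℝ, 0 < m ∧ ∀ v ∈ F, m ≤ f v := by
  classical
  induction F using Finset.induction_on with
  | empty => exact ⟨1, one_pos, by simp⟩
  | insert a s _ ih =>
    obtain ⟨m, hm, h⟩ := ih fun v hv => hf v (Finset.mem_insert_of_mem hv)
    refine ⟨min m (f a), lt_min hm (hf a (Finset.mem_insert_self _ _)), fun v hv => ?_⟩
    rcases Finset.mem_insert.mp hv with rfl | hv
    · exact min_le_right _ _
    · exact (min_le_left _ _).trans (h v hv)

/-- The base case of the Tree Theorem. -/
theorem tree_zero (low top : ℝ) (A : Finset ((Fin 0 → ℝ) × ℝ)) : Nonempty (Tree 0 low top A) := by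
  classical
  obtain ⟨μ, hμ, hμA⟩ : ∃ m : ℝ, 0 < m ∧ ∀ a ∈ A, 0 < a.2 → m ≤ a.2 := by
    induction A using Finset.induction_on with
    | empty => exact ⟨1, one_pos, by simp⟩
    | insert a s _ ih =>
      obtain ⟨m, hm, h⟩ := ih
      by_cases ha : 0 < a.2
      · refine ⟨min m a.2, lt_min hm ha, fun b hb hb2 => ?_⟩
        rcases Finset.mem_insert.mp hb with rfl | hb
        · exact min_le_right _ _
        · exact (min_le_left _ _).trans (h b hb hb2)
      · refine ⟨m, hm, fun b hb hb2 => ?_⟩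
        rcases Finset.mem_insert.mp hb with rfl | hb
        · exact absurd hb2 ha
        · exact h b hb hb2
  refine ⟨⟨{(Fin.elim0, Fin.elim0)}, μ, 1, top - 1, |top|, 1, hμ, one_pos, by linarith, one_pos,
    le_rfl, ?_, ?_, ?_, ?_, ?_, ?_, ?_⟩⟩
  · intro p _ l; exact l.elim0
  · intro p _ l; exact l.elim0
  · intro p _ l; exact l.elim0
  · intro p _ l; exact l.elim0
  · intro p _ a b _; exact a.elim0
  · intro j _
    exact ⟨_, Finset.mem_singleton_self _, fun l => l.elim0⟩
  · intro lam _ y _ _ _ p _ _ a ha h0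
    simpa [aff] using hμA a ha (by simpa [aff] using h0)

/-- The inductive step of the Tree Theorem. -/
theorem tree_step {k : ℕ} (low top : ℝ) (hlt : low ≤ top) (A : Finset ((Fin (k + 1) → ℝ) × ℝ))
    (T : ∀ v : ℝ, Tree k low (max low v) (A.image (slice (max low v)))) :
    Nonempty (Tree (k + 1) low top A) := by
  classical
  -- the coefficient bound
  set W : ℝ := ∑ a ∈ A, |a.1 0| + 1 with hW
  have hW0 : 0 < W := by
    have : 0 ≤ ∑ a ∈ A, |a.1 0| := Finset.sum_nonneg fun _ _ => abs_nonneg _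
    linarith
  have hWa : ∀ a ∈ A, |a.1 0| ≤ W := fun a ha => by
    have := Finset.single_le_sum (f := fun a : (Fin (k + 1) → ℝ) × ℝ => |a.1 0|)
      (fun _ _ => abs_nonneg _) ha
    linarith
  -- the gauge
  set r : ℝ → ℝ := fun v =>
    min (min ((T v).mu / (2 * W)) ((max low v - (T v).tstar) / 2)) (T v).rho with hrdef
  have hr0 : ∀ v, 0 < r v := fun v => by
    refine lt_min (lt_min (div_pos (T v).mu_pos (by positivity)) ?_) (T v).rho_pos
    have := (T v).tstar_lt
    linarith
  have hr1 : ∀ v, r v * W ≤ (T v).mu / 2 := fun v => by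
    have h1 : r v ≤ (T v).mu / (2 * W) := (min_le_left _ _).trans (min_le_left _ _)
    calc r v * W ≤ (T v).mu / (2 * W) * W := mul_le_mul_of_nonneg_right h1 hW0.le
      _ = (T v).mu / 2 := by field_simp
  have hr2 : ∀ v, r v ≤ (max low v - (T v).tstar) / 2 := fun v =>
    (min_le_left _ _).trans (min_le_right _ _)
  have hr3 : ∀ v, r v ≤ (T v).rho := fun v => min_le_right _ _
  obtain ⟨F, hF1, hF2, hF3, v₀, hv₀, hv₀lt⟩ := chain_lemma low top hlt (fun v => r v / 2)
    (fun v _ => half_pos (hr0 v))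
  have hFmax : ∀ v ∈ F, max low v = v := fun v hv => max_eq_right (hF1 v hv).1
  -- thresholds
  set τ : ℝ → ℝ := fun v => v - r v / 2 with hτdef
  have hτ1 : ∀ v, τ v < v := fun v => by
    have := hr0 v
    simp only [hτdef]
    linarith
  have hτ2 : ∀ v ∈ F, (T v).tstar < τ v := fun v hv => by
    have h1 := hr2 v
    have h2 := hFmax v hv
    have := hr0 v
    simp only [hτdef]
    linarith
  set δ : ℝ → ℝ := fun v => (τ v - (T v).tstar) / 2 with hδdef
  have hδ : ∀ v ∈ F, 0 < δ v := fun v hv => by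
    have := hτ2 v hv
    simp only [hδdef]
    linarith
  -- the uniform bound
  set B : ℝ := ∑ v ∈ F, (|(T v).B| + |v| + |τ v|) + |top| with hBdef
  have hBsum : ∀ v ∈ F, |(T v).B| + |v| + |τ v| ≤ ∑ v ∈ F, (|(T v).B| + |v| + |τ v|) := fun v hv =>
    Finset.single_le_sum (f := fun v => |(T v).B| + |v| + |τ v|)
      (fun _ _ => by positivity) hv
  have hB0 : 0 ≤ B := by
    have : 0 ≤ ∑ v ∈ F, (|(T v).B| + |v| + |τ v|) := Finset.sum_nonneg fun _ _ => by positivity
    have := abs_nonneg top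
    simp only [hBdef]
    linarith
  have hBtop : |top| ≤ B := by
    have : 0 ≤ ∑ v ∈ F, (|(T v).B| + |v| + |τ v|) := Finset.sum_nonneg fun _ _ => by positivity
    simp only [hBdef]
    linarith
  have hBv : ∀ v ∈ F, |v| ≤ B := fun v hv => by
    have h1 := hBsum v hv
    have h2 := abs_nonneg top
    have h3 := abs_nonneg (T v).B
    have h4 := abs_nonneg (τ v)
    simp only [hBdef]
    linarith
  have hBτ : ∀ v ∈ F, |τ v| ≤ B := fun v hv => by
    have h1 := hBsum v hv
    have h2 := abs_nonneg top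
    have h3 := abs_nonneg (T v).B
    have h4 := abs_nonneg v
    simp only [hBdef]
    linarith
  have hBT : ∀ v ∈ F, (T v).B ≤ B := fun v hv => by
    have h1 := hBsum v hv
    have h2 := abs_nonneg top
    have h3 := le_abs_self (T v).B
    have h4 := abs_nonneg v
    have h5 := abs_nonneg (τ v)
    simp only [hBdef]
    linarith
  -- the paths
  set P : Finset (Path (k + 1)) :=
    F.biUnion fun v => (T v).paths.image (consPath v (τ v)) with hPdef
  have hPmem : ∀ p, p ∈ P ↔ ∃ v ∈ F, ∃ q ∈ (T v).paths, consPath v (τ v) q = p := by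
    intro p
    simp [hPdef, Finset.mem_biUnion, Finset.mem_image]
  have hPcons : ∀ v ∈ F, ∀ q ∈ (T v).paths, consPath v (τ v) q ∈ P := fun v hv q hq =>
    (hPmem _).mpr ⟨v, hv, q, hq, rfl⟩
  -- the constant mu
  obtain ⟨μ, hμ, hμF⟩ := exists_pos_le_finset F (fun v => (T v).mu / 2)
    (fun v _ => half_pos (T v).mu_pos)
  -- large lam
  have hev : ∀ᶠ lam : ℝ in atTop, (1 : ℝ) ≤ lam ∧ (∀ v ∈ F, (T v).lam0 ≤ lam) ∧
      (∀ v ∈ F, 4 * ((k : ℝ) + 1) * B * exp (lam * 0) ≤ (r v / 2) * exp (lam * (r v / 2))) ∧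
      (∀ v ∈ F, ∀ v' ∈ F, v < v' → τ v' < v + r v / 2 →
        (v' - τ v') * exp (lam * τ v') ≤ ((v' - v) / 4) * exp (lam * (v + r v)) ∧
        (k : ℝ) * (4 * B) * exp (lam * (-δ v')) ≤ ((v' - v) / 4) * exp (lam * 0)) := by
    refine (eventually_ge_atTop 1).and ((?_ : ∀ᶠ lam : ℝ in atTop, ∀ v ∈ F, (T v).lam0 ≤ lam).and
      ((?_ : ∀ᶠ lam : ℝ in atTop, ∀ v ∈ F, _).and
      (?_ : ∀ᶠ lam : ℝ in atTop, ∀ v ∈ F, ∀ v' ∈ F, _)))
    · rw [Filter.eventually_all_finset]
      exact fun v _ => eventually_ge_atTop _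
    · rw [Filter.eventually_all_finset]
      exact fun v _ => eventually_mul_exp_le _ _ _ _ (half_pos (hr0 v)) (half_pos (hr0 v))
    · rw [Filter.eventually_all_finset]
      intro v _
      rw [Filter.eventually_all_finset]
      intro v' hv'
      by_cases h1 : v < v' ∧ τ v' < v + r v / 2
      · have h2 : 0 < (v' - v) / 4 := by linarith [h1.1]
        have h3 : τ v' < v + r v := by linarith [h1.2, hr0 v]
        have h4 := eventually_mul_exp_le (v' - τ v') ((v' - v) / 4) _ _ h2 h3
        have h5 := eventually_mul_exp_le ((k : ℝ) * (4 * B)) ((v' - v) / 4) (-δ v') 0 h2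
          (by have := hδ v' hv'; linarith)
        filter_upwards [h4, h5] with lam h6 h7 _ _
        exact ⟨h6, h7⟩
      · filter_upwards with lam h2 h3
        exact absurd ⟨h2, h3⟩ h1
  obtain ⟨a₀, ha₀⟩ := Filter.eventually_atTop.mp hev
  -- the properties of paths
  have hg_le : ∀ p ∈ P, ∀ l, p.1 l ≤ top := by
    intro p hp l
    obtain ⟨v, hv, q, hq, rfl⟩ := (hPmem p).mp hp
    induction l using Fin.cases with
    | zero => simpa [consPath] using (hF1 v hv).2
    | succ l =>
      have := (T v).g_le q hq l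
      rw [hFmax v hv] at this
      simpa [consPath] using this.trans (hF1 v hv).2
  have htau_lt : ∀ p ∈ P, ∀ l, p.2 l < p.1 l := by
    intro p hp l
    obtain ⟨v, hv, q, hq, rfl⟩ := (hPmem p).mp hp
    induction l using Fin.cases with
    | zero => simpa [consPath] using hτ1 v
    | succ l => simpa [consPath] using (T v).tau_lt q hq l
  have hg_bd : ∀ p ∈ P, ∀ l, |p.1 l| ≤ B := by
    intro p hp l
    obtain ⟨v, hv, q, hq, rfl⟩ := (hPmem p).mp hp
    induction l using Fin.cases with
    | zero => simpa [consPath] using hBv v hv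
    | succ l => simpa [consPath] using ((T v).g_bd q hq l).trans (hBT v hv)
  have htau_bd : ∀ p ∈ P, ∀ l, |p.2 l| ≤ B := by
    intro p hp l
    obtain ⟨v, hv, q, hq, rfl⟩ := (hPmem p).mp hp
    induction l using Fin.cases with
    | zero => simpa [consPath] using hBτ v hv
    | succ l => simpa [consPath] using ((T v).tau_bd q hq l).trans (hBT v hv)
  have hanti : ∀ p ∈ P, Antitone p.1 := by
    intro p hp
    obtain ⟨v, hv, q, hq, rfl⟩ := (hPmem p).mp hp
    refine antitone_cons v q.1 (fun l => ?_) ((T v).anti q hq)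
    have := (T v).g_le q hq l
    rwa [hFmax v hv] at this
  have htopmax : max low top = top := max_eq_right hlt
  have htstar : max (τ top) (T top).tstar < top := by
    refine max_lt (hτ1 top) ?_
    exact lt_of_lt_of_eq (T top).tstar_lt htopmax
  have hchain : ∀ j : ℕ, j ≤ k + 1 → ∃ p ∈ P, ∀ l : Fin (k + 1),
      (l.val < j → p.1 l = top ∧ p.2 l ≤ max (τ top) (T top).tstar) ∧
      (j ≤ l.val → p.2 l ≤ low) := by
    intro j hj
    cases j with
    | zero =>
      obtain ⟨q, hq, hch⟩ := (T v₀).chain 0 (Nat.zero_le _)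
      refine ⟨_, hPcons v₀ hv₀ q hq, fun l => ⟨fun h => absurd h (Nat.not_lt_zero _), fun _ => ?_⟩⟩
      induction l using Fin.cases with
      | zero =>
        simp only [consPath, Fin.cons_zero]
        exact hv₀lt.le
      | succ l =>
        simp only [consPath, Fin.cons_succ]
        exact (hch l).2 (Nat.zero_le _)
    | succ j =>
      obtain ⟨q, hq, hch⟩ := (T top).chain j (by omega)
      refine ⟨_, hPcons top hF2 q hq, fun l => ?_⟩
      induction l using Fin.cases with
      | zero =>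
        refine ⟨fun _ => ?_, fun h => ?_⟩
        · exact ⟨rfl, le_max_left _ _⟩
        · simp at h
      | succ l =>
        simp only [consPath, Fin.cons_succ, Fin.val_succ]
        refine ⟨fun h => ?_, fun h => (hch l).2 (by omega)⟩
        obtain ⟨h1, h2⟩ := (hch l).1 (by omega)
        rw [htopmax] at h1
        exact ⟨h1, h2.trans (le_max_right _ _)⟩
  -- selection
  have hselect : ∀ lam, max a₀ 1 ≤ lam → ∀ y : Fin (k + 1) → ℝ, Antitone y →
      (∀ l, exp (lam * low) ≤ y l) → (∀ l, y l ≤ exp (lam * (top + r top))) →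
      ∀ p ∈ P, (∀ q ∈ P, E lam q y ≤ E lam p y) →
      ∀ a ∈ A, 0 < aff a p.1 → μ ≤ aff a (fun l => log (y l) / lam) := by
    intro lam hlam y hanti' hylow hyup p hp hmax a ha hpos
    obtain ⟨hlam1, hlam2, hlam3, hlam4⟩ := ha₀ lam ((le_max_left _ _).trans hlam)
    have hlam0 : 0 < lam := by linarith
    obtain ⟨v, hv, q, hq, rfl⟩ := (hPmem p).mp hp
    have hypos : ∀ l, 0 < y l := fun l => (exp_pos _).trans_le (hylow l)
    set y0 := y 0 with hy0
    have hy0pos : 0 < y0 := hypos 0
    have hytail : ∀ l, Fin.tail y l ≤ y0 := fun l => hanti' (Fin.zero_le _)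
    have hytailpos : ∀ l, 0 < Fin.tail y l := fun l => hypos _
    have hytaillow : ∀ l, exp (lam * low) ≤ Fin.tail y l := fun l => hylow _
    have hytailanti : Antitone (Fin.tail y) := fun a b hab =>
      hanti' (Fin.succ_le_succ_iff.mpr hab)
    have hqmax : ∀ q' ∈ (T v).paths, E lam q' (Fin.tail y) ≤ E lam q (Fin.tail y) := by
      intro q' hq'
      have := hmax _ (hPcons v hv q' hq')
      rw [E_cons, E_cons] at this
      linarith
    have hqle : ∀ l, q.1 l ≤ v := fun l => by
      have := (T v).g_le q hq l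
      rwa [hFmax v hv] at this
    have hqlt : ∀ l, q.2 l < q.1 l := (T v).tau_lt q hq
    have hqbd : ∀ l, |q.1 l| ≤ B := fun l => ((T v).g_bd q hq l).trans (hBT v hv)
    -- Claim A
    have hupper : y0 ≤ exp (lam * (v + r v)) := by
      by_cases hvtop : v = top
      · subst hvtop
        exact hyup 0
      · by_contra hcon
        push Not at hcon
        obtain ⟨v', hv', hvv', hτ'⟩ := hF3 v hv hvtop
        have hτ'' : τ v' < v + r v / 2 := hτ'
        obtain ⟨hE1, hE2⟩ := hlam4 v hv v' hv' hvv' hτ''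
        set Y := y0 * exp (lam * (-δ v')) with hY
        have hYpos : 0 < Y := mul_pos hy0pos (exp_pos _)
        obtain ⟨j, hj, hsplit⟩ := threshold_split (Fin.tail y) hytailanti Y
        obtain ⟨qj, hqj, hch⟩ := (T v').chain j hj
        have hmaxv' : max low v' = v' := hFmax v' hv'
        have hqj1 : ∀ l, |qj.1 l| ≤ B := fun l => ((T v').g_bd qj hqj l).trans (hBT v' hv')
        have hqj2 : ∀ l, |qj.2 l| ≤ B := fun l => ((T v').tau_bd qj hqj l).trans (hBT v' hv')
        have hcost : exp (lam * (T v').tstar) ≤ Y := by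
          rw [hY]
          have h1 : exp (lam * (v + r v)) * exp (lam * (-δ v')) ≤ y0 * exp (lam * (-δ v')) :=
            mul_le_mul_of_nonneg_right hcon.le (exp_pos _).le
          refine le_trans ?_ h1
          rw [← exp_add]
          apply exp_le_exp.mpr
          rw [← mul_add]
          apply mul_le_mul_of_nonneg_left _ hlam0.le
          have h2 : δ v' = (τ v' - (T v').tstar) / 2 := rfl
          have h3 := hδ v' hv'
          have h4 := hr0 v
          linarith
        have hchain' : v' * ∑ l, Fin.tail y l - k * (4 * B * Y) ≤ E lam qj (Fin.tail y) := by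
          refine E_ge_chain lam low B Y v' (T v').tstar hlam0 qj (Fin.tail y) j (hBv v' hv')
            hqj1 hqj2 ((T v').tau_lt qj hqj) hytaillow (fun l => ?_) (fun l hl => (hsplit l).2 hl)
            hcost hYpos
          refine ⟨fun h => ?_, (hch l).2⟩
          obtain ⟨h1, h2⟩ := (hch l).1 h
          rw [hmaxv'] at h1
          exact ⟨h1, h2⟩
        have hcand : E lam q (Fin.tail y) ≤ v * ∑ l, Fin.tail y l :=
          E_le_top lam v q _ hqle hqlt hytailpos
        have hm := hmax _ (hPcons v' hv' qj hqj)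
        rw [E_cons, E_cons] at hm
        have hcostv : 0 ≤ (v - τ v) * exp (lam * τ v) :=
          mul_nonneg (sub_nonneg.mpr (hτ1 v).le) (exp_pos _).le
        have hsum : 0 ≤ ∑ l, Fin.tail y l := Finset.sum_nonneg fun l _ => (hytailpos l).le
        have hdv : 0 < v' - v := sub_pos.mpr hvv'
        have hE1' : (v' - τ v') * exp (lam * τ v') ≤ ((v' - v) / 4) * y0 :=
          hE1.trans (mul_le_mul_of_nonneg_left hcon.le (by positivity))
        have hE2' : (k : ℝ) * (4 * B * Y) ≤ ((v' - v) / 4) * y0 := by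
          have h1 : (k : ℝ) * (4 * B * Y) = (k : ℝ) * (4 * B) * exp (lam * (-δ v')) * y0 := by
            rw [hY]; ring
          rw [h1]
          have h2 : (k : ℝ) * (4 * B) * exp (lam * (-δ v')) ≤ (v' - v) / 4 := by
            simpa using hE2
          exact mul_le_mul_of_nonneg_right h2 hy0pos.le
        have hprod : 0 ≤ (v' - v) * ∑ l, Fin.tail y l := mul_nonneg hdv.le hsum
        have hfin : 0 < (v' - v) * y0 := mul_pos hdv hy0pos
        nlinarith
    -- Claim B
    have hlower : exp (lam * (v - r v)) ≤ y0 := by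
      by_contra hcon
      push Not at hcon
      obtain ⟨q₀, hq₀, hch⟩ := (T v₀).chain 0 (Nat.zero_le _)
      have hm := hmax _ (hPcons v₀ hv₀ q₀ hq₀)
      rw [E_cons, E_cons] at hm
      have h1 : -((k : ℝ) * (3 * B * y0)) ≤ E lam q₀ (Fin.tail y) :=
        E_ge_low lam low B y0 hlam0 q₀ _ (fun l => ((T v₀).g_bd q₀ hq₀ l).trans (hBT v₀ hv₀))
          (fun l => ((T v₀).tau_bd q₀ hq₀ l).trans (hBT v₀ hv₀))
          (fun l => (hch l).2 (Nat.zero_le _)) ((T v₀).tau_lt q₀ hq₀) hytaillow hytail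
      have h2 : E lam q (Fin.tail y) ≤ (k : ℝ) * (B * y0) :=
        E_le_bound lam B y0 q _ hqbd hqlt hytailpos hytail hB0
      have h3 : exp (lam * τ v₀) ≤ y0 :=
        (exp_le_exp.mpr (mul_le_mul_of_nonneg_left hv₀lt.le hlam0.le)).trans (hylow 0)
      have h4 : (v₀ - τ v₀) * exp (lam * τ v₀) ≤ 2 * B * y0 := by
        have h5 := abs_le.mp (hBv v₀ hv₀)
        have h6 := abs_le.mp (hBτ v₀ hv₀)
        exact mul_le_mul (by linarith) h3 (exp_pos _).le (by linarith)
      have h5 : -(B * y0) ≤ v₀ * y0 := by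
        have := (abs_le.mp (hBv v₀ hv₀)).1
        nlinarith
      have h6 : v * y0 ≤ B * y0 := by
        have := (abs_le.mp (hBv v hv)).2
        nlinarith
      have h7 : v - τ v = r v / 2 := by simp only [hτdef]; ring
      rw [h7] at hm
      have h8 : y0 * exp (lam * (r v / 2)) < exp (lam * τ v) := by
        have : exp (lam * τ v) = exp (lam * (v - r v)) * exp (lam * (r v / 2)) := by
          rw [← exp_add]; congr 1; simp only [hτdef]; ring
        rw [this]
        exact mul_lt_mul_of_pos_right hcon (exp_pos _)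
      have h9 := hlam3 v hv
      simp only [mul_zero, exp_zero, mul_one] at h9
      have h10 : (r v / 2) * (y0 * exp (lam * (r v / 2))) < (r v / 2) * exp (lam * τ v) :=
        mul_lt_mul_of_pos_left h8 (half_pos (hr0 v))
      have h11 : 4 * ((k : ℝ) + 1) * B * y0 ≤ (r v / 2) * exp (lam * (r v / 2)) * y0 :=
        mul_le_mul_of_nonneg_right h9 hy0pos.le
      nlinarith
    -- apply the child selection
    have hmaxv : max low v = v := hFmax v hv
    have hchild := (T v).select lam (hlam2 v hv) (Fin.tail y) hytailanti hytaillow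
      (fun l => by
        refine (hytail l).trans (hupper.trans (exp_le_exp.mpr ?_))
        exact mul_le_mul_of_nonneg_left (by linarith [hr3 v, hmaxv]) hlam0.le)
      q hq hqmax (slice (max low v) a) (Finset.mem_image_of_mem _ ha)
      (by
        have h1 := aff_cons a (max low v) q.1 v
        have h2 : v - max low v = 0 := by rw [hmaxv]; ring
        rw [h2, mul_zero, add_zero] at h1
        rw [← h1]
        exact hpos)
    -- the final estimate
    have hfin := aff_of_tail a (max low v) (fun l => log (y l) / lam)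
    have hlog1 : log y0 / lam ≤ v + r v := by
      rw [div_le_iff₀ hlam0]
      have := (log_le_iff_le_exp hy0pos).mpr hupper
      linarith
    have hlog2 : v - r v ≤ log y0 / lam := by
      rw [le_div_iff₀ hlam0]
      have := (le_log_iff_exp_le hy0pos).mpr hlower
      linarith
    have hdev : |log y0 / lam - v| ≤ r v := abs_le.mpr ⟨by linarith, by linarith⟩
    have hprod : |a.1 0 * (log y0 / lam - v)| ≤ (T v).mu / 2 := by
      rw [abs_mul]
      calc |a.1 0| * |log y0 / lam - v| ≤ W * r v :=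
            mul_le_mul (hWa a ha) hdev (abs_nonneg _) hW0.le
        _ = r v * W := mul_comm _ _
        _ ≤ (T v).mu / 2 := hr1 v
    have htailfun : Fin.tail (fun l => log (y l) / lam) = fun l => log (Fin.tail y l) / lam := rfl
    rw [hfin, htailfun]
    have := (abs_le.mp hprod).1
    have h0 := hμF v hv
    have h3 : log (y 0) / lam - max low v = log y0 / lam - v := by rw [hmaxv]
    rw [h3]
    linarith
  refine ⟨⟨P, μ, r top, max (τ top) (T top).tstar, B, max a₀ 1, hμ, hr0 top, htstar,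
    lt_max_of_lt_right one_pos, hBtop, hg_le, htau_lt, hg_bd, htau_bd, hanti, hchain, hselect⟩⟩

/-- **Tree Theorem.** -/
theorem tree_exists (k : ℕ) : ∀ (low top : ℝ), low ≤ top →
    ∀ A : Finset ((Fin k → ℝ) × ℝ), Nonempty (Tree k low top A) := by
  classical
  induction k with
  | zero => exact fun low top _ A => tree_zero low top A
  | succ k ih =>
    intro low top h A
    exact tree_step low top h A fun v =>
      Classical.choice (ih low (max low v) (le_max_left _ _) _)

end Crest.Agent.Lib.MassPerm
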